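import Vale.Agent.P032.H678.VW1
import Vale.Agent.P032.S5.H824.Common

/-!
# P032: two common points of two unit circles, three inequalities

* `sq_sum` : `|p - p'|² + |V - W|² = 4` for the two common points;
* `far_of_diam` : common points at distance at most one: `3 ≤ |V - W|²`;
* `near_end` : common points `p ≠ p'` and a point `q` of `S(W)` at distance at most one from both:
  `|V - q|² < 3`.
-/

open Set Filter Topology Metric

noncomputable section

namespace Vale.Agent.P032.H678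

open Vale.Agent.P032.Six

theorem normSq_one {x y : ℂ} (h : dist x y = 1) : Complex.normSq (x - y) = 1 := by
  rw [Complex.normSq_eq_norm_sq, ← dist_eq_norm, h, one_pow]

theorem sq_dist' (x y : ℂ) : dist x y ^ 2 = Complex.normSq (x - y) := by
  rw [Complex.normSq_eq_norm_sq, ← dist_eq_norm]

/-- the parallelogram `V, p, W, p'` -/
theorem sq_sum {V W p p' : ℂ} (hp : dist p V = 1) (hp' : dist p' V = 1) (hs : p + p' = V + W) :
    dist p p' ^ 2 + dist V W ^ 2 = 4 := by
  obtain ⟨A, hA⟩ : ∃ A, A = p - V := ⟨_, rfl⟩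
  obtain ⟨B, hB⟩ : ∃ B, B = p' - V := ⟨_, rfl⟩
  have e1 : p - p' = A - B := by rw [hA, hB]; ring
  have e2 : V - W = -(A + B) := by rw [hA, hB]; linear_combination hs
  have n1 : Complex.normSq A = 1 := by rw [hA]; exact normSq_one hp
  have n2 : Complex.normSq B = 1 := by rw [hB]; exact normSq_one hp'
  rw [sq_dist', sq_dist', e1, e2, Complex.normSq_neg]
  rw [Complex.normSq_apply] at n1 n2
  rw [Complex.normSq_apply, Complex.normSq_apply]
  simp only [Complex.sub_re, Complex.sub_im, Complex.add_re, Complex.add_im]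
  nlinarith

theorem far_of_diam {V W p p' : ℂ} (hp : dist p V = 1) (hp' : dist p' V = 1)
    (hs : p + p' = V + W) (hd : dist p p' ≤ 1) : 3 ≤ dist V W ^ 2 := by
  have h1 := sq_sum hp hp' hs
  have h2 : dist p p' ^ 2 ≤ 1 := pow_le_one₀ dist_nonneg hd
  linarith

theorem near_end {V W p p' q : ℂ} (hp : dist p W = 1) (hp' : dist p' W = 1)
    (hs : p + p' = V + W) (hne : p ≠ p') (hq : dist q W = 1) (hpq : dist p q ≤ 1)
    (hpq' : dist p' q ≤ 1) : dist V q ^ 2 < 3 := by
  obtain ⟨A, hA⟩ : ∃ A, A = p - W := ⟨_, rfl⟩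
  obtain ⟨B, hB⟩ : ∃ B, B = p' - W := ⟨_, rfl⟩
  obtain ⟨D, hD⟩ : ∃ D, D = q - W := ⟨_, rfl⟩
  have e1 : p - q = A - D := by rw [hA, hD]; ring
  have e2 : p' - q = B - D := by rw [hB, hD]; ring
  have e3 : V - q = A + B - D := by rw [hA, hB, hD]; linear_combination -hs
  have e4 : p - p' = A - B := by rw [hA, hB]; ring
  have n1 : Complex.normSq A = 1 := by rw [hA]; exact normSq_one hp
  have n2 : Complex.normSq B = 1 := by rw [hB]; exact normSq_one hp'
  have n3 : Complex.normSq D = 1 := by rw [hD]; exact normSq_one hq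
  have n4 : Complex.normSq (A - D) ≤ 1 := by
    rw [← e1, ← sq_dist']; exact pow_le_one₀ dist_nonneg hpq
  have n5 : Complex.normSq (B - D) ≤ 1 := by
    rw [← e2, ← sq_dist']; exact pow_le_one₀ dist_nonneg hpq'
  have n6 : 0 < Complex.normSq (A - B) := by
    rw [Complex.normSq_pos, ← e4]; exact sub_ne_zero.2 hne
  rw [sq_dist', e3]
  rw [Complex.normSq_apply] at n1 n2 n3 n4 n5 n6
  rw [Complex.normSq_apply]
  simp only [Complex.sub_re, Complex.sub_im, Complex.add_re, Complex.add_im] at *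
  nlinarith

/-- the two common points, with their sum -/
theorem two_common {V W : ℂ} (h2 : dist V W < 2) (hne : V ≠ W) :
    ∃ p p', p ≠ p' ∧ dist p V = 1 ∧ dist p W = 1 ∧ dist p' V = 1 ∧ dist p' W = 1 ∧
      V + W ≠ 2 * p ∧ V + W ≠ 2 * p' ∧ p + p' = V + W := by
  obtain ⟨p, p', h1, h3, h4, h5, h6, h7, h8⟩ := H227.exists_two h2 hne
  exact ⟨p, p', h1, h3, h4, h5, h6, h7, h8, second_point hne h3 h4 h5 h6 h1⟩

/-- a common point is one of the two -/
theorem common_eq {V W p p' q : ℂ} (hne : V ≠ W) (hp : dist p V = 1) (hpW : dist p W = 1)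
    (hs : p + p' = V + W) (hq : dist q V = 1) (hqW : dist q W = 1) :
    q = p ∨ q = p' := by
  by_cases h : q = p
  · exact Or.inl h
  · right
    have h1 := second_point hne hq hqW hp hpW h
    linear_combination h1 - hs

theorem lt_two_of_sq {V W : ℂ} (h : dist V W ^ 2 < 3) : dist V W < 2 := by
  nlinarith [dist_nonneg (x := V) (y := W)]

theorem one_lt_of_sq {V W : ℂ} (h : 3 ≤ dist V W ^ 2) : 1 < dist V W := by
  nlinarith [dist_nonneg (x := V) (y := W)]

/-! ### the arc of `S(V)` inside `D(W)` -/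

/-- radial projection of the chord -/
theorem exists_arc {V W p p' : ℂ} (hne : V ≠ W) (hp : dist p V = 1) (hpW : dist p W = 1)
    (hp' : dist p' V = 1) (hpW' : dist p' W = 1) (hpp : p ≠ p') :
    ∃ A : Set ℂ, IsPreconnected A ∧ (∀ q ∈ A, dist q V = 1 ∧ dist q W < 1) ∧ p ∈ closure A ∧
      p' ∈ closure A := by
  obtain ⟨m, A, t, hA, ep, ep', eV, eW, hN⟩ := H227.lens_coord hp hpW hp' hpW' hpp hne
  have ht : t ≠ 0 := by
    rintro rfl
    apply hne
    rw [eV, eW]; simp
  have hA2 : 0 < Complex.normSq A := Complex.normSq_pos.2 hA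
  -- the path
  obtain ⟨g, hg⟩ : ∃ g : ℝ → ℂ, g = fun s : ℝ => ((s : ℂ) - t * Complex.I) * A := ⟨_, rfl⟩
  have hgn : ∀ s, Complex.normSq (g s) = (s ^ 2 + t ^ 2) * Complex.normSq A := by
    intro s
    rw [hg]
    simp only
    rw [Complex.normSq_mul]
    congr 1
    rw [Complex.normSq_apply]; simp; ring
  have hg0 : ∀ s, 0 < ‖g s‖ := by
    intro s
    rw [norm_pos_iff, ← Complex.normSq_pos, hgn]
    have : 0 < t ^ 2 := by positivity
    exact mul_pos (by nlinarith [sq_nonneg s]) hA2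
  have hgc : Continuous g := by rw [hg]; fun_prop
  obtain ⟨f, hf⟩ : ∃ f : ℝ → ℂ, f = fun s : ℝ => V + g s / (‖g s‖ : ℂ) := ⟨_, rfl⟩
  have hfc : Continuous f := by
    rw [hf]
    refine continuous_const.add (hgc.div (by fun_prop) fun s => ?_)
    exact_mod_cast (hg0 s).ne'
  have hfV : ∀ s, dist (f s) V = 1 := by
    intro s
    rw [hf, dist_eq_norm]
    simp only [add_sub_cancel_left, norm_div, Complex.norm_real, norm_norm]
    exact div_self (hg0 s).ne'
  have hfW : ∀ s, dist (f s) W ^ 2 = 1 + 4 * t ^ 2 * Complex.normSq A * (1 - 1 / ‖g s‖) := by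
    intro s
    have e1 : f s - W = (((s : ℂ) - t * Complex.I) / (‖g s‖ : ℂ) + 2 * t * Complex.I) * A := by
      rw [hf, eW]
      simp only
      rw [eV, hg]
      ring
    have hgs : ‖g s‖ ^ 2 = (s ^ 2 + t ^ 2) * Complex.normSq A := by
      rw [← Complex.normSq_eq_norm_sq, hgn]
    obtain ⟨n, hn⟩ : ∃ n, n = ‖g s‖ := ⟨_, rfl⟩
    have hn0 : 0 < n := by rw [hn]; exact hg0 s
    rw [← hn] at hgs e1 ⊢
    rw [sq_dist', e1, Complex.normSq_mul]
    have e2 : Complex.normSq (((s : ℂ) - t * Complex.I) / (n : ℂ) + 2 * t * Complex.I) =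
        (s / n) ^ 2 + (2 * t - t / n) ^ 2 := by
      have e3 : ((s : ℂ) - t * Complex.I) / (n : ℂ) + 2 * t * Complex.I =
          ((s / n : ℝ) : ℂ) + ((2 * t - t / n : ℝ) : ℂ) * Complex.I := by
        push_cast; ring
      rw [e3, Complex.normSq_add_mul_I]
    rw [e2]
    have e4 : ((s / n) ^ 2 + (t / n) ^ 2) * Complex.normSq A = 1 := by
      rw [div_pow, div_pow, ← add_div, div_mul_eq_mul_div, ← hgs, div_self (by positivity)]
    have e5 : (s / n) ^ 2 + (2 * t - t / n) ^ 2 =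
        ((s / n) ^ 2 + (t / n) ^ 2) + 4 * t ^ 2 * (1 - 1 / n) := by
      field_simp; ring
    rw [e5, add_mul, e4]; ring
  refine ⟨f '' Ioo (-1) 1, isPreconnected_Ioo.image f hfc.continuousOn, ?_, ?_, ?_⟩
  · rintro q ⟨s, hs, rfl⟩
    refine ⟨hfV s, ?_⟩
    have h1 : ‖g s‖ < 1 := by
      have h2 : ‖g s‖ ^ 2 < 1 := by
        rw [← Complex.normSq_eq_norm_sq, hgn, ← hN, mul_comm]
        refine mul_lt_mul_of_pos_left ?_ hA2
        nlinarith [hs.1, hs.2]
      nlinarith [norm_nonneg (g s)]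
    have h3 : dist (f s) W ^ 2 < 1 := by
      rw [hfW]
      have h4 : 1 < 1 / ‖g s‖ := by rw [lt_div_iff₀ (hg0 s)]; linarith
      have h5 : 0 < 4 * t ^ 2 * Complex.normSq A := by positivity
      nlinarith
    nlinarith [dist_nonneg (x := f s) (y := W)]
  · have e : f 1 = p := by
      have h1 : ‖g 1‖ = 1 := by
        have h2 : ‖g 1‖ ^ 2 = 1 := by
          rw [← Complex.normSq_eq_norm_sq, hgn]; linear_combination hN
        nlinarith [norm_nonneg (g 1)]
      rw [hf]
      simp only [h1]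
      rw [hg, eV, ep]
      push_cast
      ring
    have h1 := hfc.continuousAt (x := 1)
    rw [← e]
    have h2 : (1 : ℝ) ∈ closure (Ioo (-1 : ℝ) 1) := by
      rw [closure_Ioo (by norm_num)]; exact ⟨by norm_num, le_rfl⟩
    exact image_closure_subset_closure_image hfc ⟨1, h2, rfl⟩
  · have e : f (-1) = p' := by
      have h1 : ‖g (-1)‖ = 1 := by
        have h2 : ‖g (-1)‖ ^ 2 = 1 := by
          rw [← Complex.normSq_eq_norm_sq, hgn]; linear_combination hN
        nlinarith [norm_nonneg (g (-1))]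
      rw [hf]
      simp only [h1]
      rw [hg, eV, ep']
      push_cast
      ring
    rw [← e]
    have h2 : (-1 : ℝ) ∈ closure (Ioo (-1 : ℝ) 1) := by
      rw [closure_Ioo (by norm_num)]; exact ⟨le_rfl, by norm_num⟩
    exact image_closure_subset_closure_image hfc ⟨-1, h2, rfl⟩

open Vale.Agent.P032.S5.H767

variable {T : ℂ → Set (Fin 6)}

/-- if one common point is on an exact arc of `S(V)` and the other one is no limit of the exact
arcs, then an end of the exact arcs is inside `D(W)` -/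
theorem exists_end {V W p p' : ℂ} {C : Set (Fin 6)} (hne : V ≠ W) (hp : dist p V = 1)
    (hpW : dist p W = 1) (hp' : dist p' V = 1) (hpW' : dist p' W = 1)
    (hpE : p ∈ Ex T V C) (hpE' : p' ∉ closure (Ex T V C)) :
    ∃ q ∈ closure (Ex T V C), q ∉ Ex T V C ∧ dist q W < 1 := by
  have hpp : p ≠ p' := fun e => hpE' (e ▸ subset_closure hpE)
  obtain ⟨A, hA, hAs, hpA, hpA'⟩ := exists_arc hne hp hpW hp' hpW' hpp
  by_contra hcon
  push Not at hcon
  have hO : IsOpen {y : ℂ | ∀ᶠ q in 𝓝 y, q ∈ sphere V 1 → T q = C} := isOpen_setOfPred_eventually_nhds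
  have hmem : ∀ y, dist y V = 1 →
      (y ∈ {y : ℂ | ∀ᶠ q in 𝓝 y, q ∈ sphere V 1 → T q = C} ↔ y ∈ Ex T V C) := by
    intro y hy
    constructor
    · intro h1
      exact ⟨hy, eventually_nhdsWithin_iff.2 h1⟩
    · intro h1
      exact eventually_nhdsWithin_iff.1 h1.2
  have hO2 : IsOpen (closure (Ex T V C))ᶜ := isClosed_closure.isOpen_compl
  have hcov : A ⊆ {y : ℂ | ∀ᶠ q in 𝓝 y, q ∈ sphere V 1 → T q = C} ∪ (closure (Ex T V C))ᶜ := by
    intro y hy
    by_cases h1 : y ∈ closure (Ex T V C)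
    · left
      rw [hmem y (hAs y hy).1]
      by_contra h2
      exact absurd (hAs y hy).2 (not_lt.2 (hcon y h1 h2))
    · exact Or.inr h1
  have h1 : (A ∩ {y : ℂ | ∀ᶠ q in 𝓝 y, q ∈ sphere V 1 → T q = C}).Nonempty := by
    obtain ⟨y, hy1, hy2⟩ := mem_closure_iff.1 hpA _ hO ((hmem p hp).2 hpE)
    exact ⟨y, hy2, hy1⟩
  have h2 : (A ∩ (closure (Ex T V C))ᶜ).Nonempty := by
    obtain ⟨y, hy1, hy2⟩ := mem_closure_iff.1 hpA' _ hO2 hpE'
    exact ⟨y, hy2, hy1⟩
  obtain ⟨y, hyA, hy1, hy2⟩ := hA _ _ hO hO2 hcov h1 h2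
  exact hy2 (subset_closure ((hmem y (hAs y hyA).1).1 hy1))

end Vale.Agent.P032.H678
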