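import Vale.Agent.P032.H678.VW2

/-!
# P032: complementary faces of two chain vertices (lemma VW, note 15780)

`Qf T V C A` : a quasi-full two-pair point with connecting pair `C`, other pair `A`.
`QW T Q` : the world of quasi-full points, `Q V C A` = `V` is a chain vertex with pairs `C`, `A`.
`vw` : if a face `insert r C` of `V` is the complement of a face `insert s C'` of `W` and
`|V - W| < 2`, then one of the two points (say `W`) is mixed, all contacts are exact points of its
connecting arc, and `C' = (T V)ᶜ` (structure `Lens`).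
-/

open Set Filter Topology Metric

noncomputable section

namespace Vale.Agent.P032.H678

open Vale.Agent.P032.Six Vale.Agent.P032.S5.H767

variable {U : Fin 6 → Set ℂ} {T : ℂ → Set (Fin 6)}

/-- a quasi-full two-pair point: connecting pair `C`, other pair `A` -/
structure Qf (T : ℂ → Set (Fin 6)) (V : ℂ) (C A : Set (Fin 6)) : Prop where
  tp : TP T V C A
  diam : ∀ p ∈ closure (Ex T V C), ∀ q ∈ closure (Ex T V C), dist p q ≤ 1
  three : ∀ p ∈ closure (Ex T V C), (T p).ncard ≤ 3 → T p = C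
  conv : ∀ p ∈ Ex T V C, ∀ p' ∈ Ex T V C, ∀ q, dist q V = 1 → dist q (p + p' - V) < 1 → T q = C
  conn : IsPreconnected (closure (Ex T V C))

/-- the world of quasi-full points -/
structure QW (T : ℂ → Set (Fin 6)) (Q : ℂ → Set (Fin 6) → Set (Fin 6) → Prop) : Prop where
  qf : ∀ V C A, Q V C A → Qf T V C A
  ends : ∀ V C A, Q V C A → ∃ q ∈ closure (Ex T V C), 4 ≤ (T q).ncard
  link : ∀ V C A q, Q V C A → q ∈ closure (Ex T V C) → 4 ≤ (T q).ncard →
    ∃ α α' X g, C = {α, α'} ∧ α ≠ α' ∧ X ∈ A ∧ g ∉ C ∧ g ≠ X ∧ Q q {α, X} {α', g}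
  four : ∀ V C A W C' A' p, Q V C A → Q W C' A' → V ≠ W → V + W ≠ 2 * p → dist p V = 1 →
    dist p W = 1 → 4 ≤ (T p).ncard → (C ∩ C').Nonempty

theorem Qf.ex (h : Irr U T) {V p : ℂ} {C A : Set (Fin 6)} (H : Qf T V C A)
    (hp : p ∈ closure (Ex T V C)) (h3 : (T p).ncard ≤ 3) : p ∈ Ex T V C := by
  have e := H.three p hp h3
  refine ⟨dist_of_closure hp, ?_⟩
  filter_upwards [ev_sub h, self_mem_nhdsWithin] with q h1 h2
  rw [e] at h1
  have hsub : T q ⊆ T V := h1.trans (by rw [H.tp.pal]; exact subset_union_left)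
  rcases H.tp.near q h2 hsub with h4 | h4
  · exact Subset.antisymm h1 h4.2
  · exfalso
    obtain ⟨i, hi⟩ : A.Nonempty := (Set.ncard_pos (Set.toFinite _)).1 (by rw [H.tp.c2]; norm_num)
    exact Set.disjoint_left.1 H.tp.disj (h1 (h4.2 hi)) hi

theorem Qf.four_of {V p : ℂ} {C A : Set (Fin 6)} (h : Irr U T) (H : Qf T V C A)
    (hp : p ∈ closure (Ex T V C)) (hn : p ∉ Ex T V C) : 4 ≤ (T p).ncard := by
  by_contra h1
  exact hn (H.ex h hp (by omega))

namespace QW

variable {Q : ℂ → Set (Fin 6) → Set (Fin 6) → Prop}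

/-- contacts of chain vertices with disjoint connecting pairs have order at most three -/
theorem ord3 (hw : QW T Q) {V W p : ℂ} {C A C' A' : Set (Fin 6)} (hQ : Q V C A) (hQ' : Q W C' A')
    (hd : ∀ i ∈ C, i ∉ C') (hne : V ≠ W) (hne2 : V + W ≠ 2 * p) (hp : dist p V = 1)
    (hp' : dist p W = 1) : (T p).ncard ≤ 3 := by
  by_contra hcon
  obtain ⟨i, hi, hi'⟩ := hw.four V C A W C' A' p hQ hQ' hne hne2 hp hp' (by omega)
  exact hd i hi hi'

/-- the contact lemma for chain vertices -/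
theorem contactQ (h : Irr U T) (hw : QW T Q) {V W p : ℂ} {C A C' A' : Set (Fin 6)} (hQ : Q V C A)
    (hQ' : Q W C' A') (hd : ∀ i ∈ C, i ∉ C') (hcov : ∀ i, i ∈ T V ∨ i ∈ T W) (hne : V ≠ W)
    (hne2 : V + W ≠ 2 * p) (hp : dist p V = 1) (hp' : dist p W = 1) :
    (C = (T W)ᶜ ∧ p ∈ Ex T V C) ∨ A = (T W)ᶜ ∨ (C' = (T V)ᶜ ∧ p ∈ Ex T W C') ∨ A' = (T V)ᶜ ∨
      ∃ i j k, A = {i, k} ∧ A' = {j, k} ∧ i ∉ T W ∧ j ∉ T V := by
  have h3 := hw.ord3 hQ hQ' hd hne hne2 hp hp'
  have HV := hw.qf V C A hQ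
  have HW := hw.qf W C' A' hQ'
  rcases contact h HV.tp HW.tp hcov hne hne2 hp hp' h3 with
    ⟨R, hR, hRW, hpR⟩ | ⟨R, hR, hRV, hpR⟩ | ⟨R, R', i, j, k, hR, hR', hpR, hpR', hi, hj, hkV, hkW,
      e1, e2, e3⟩
  · rcases hR with rfl | rfl
    · exact Or.inl ⟨hRW, HV.ex h hpR h3⟩
    · exact Or.inr (Or.inl hRW)
  · rcases hR with rfl | rfl
    · exact Or.inr (Or.inr (Or.inl ⟨hRV, HW.ex h hpR h3⟩))
    · exact Or.inr (Or.inr (Or.inr (Or.inl hRV)))
  · right; right; right; right
    rcases hR with rfl | rfl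
    · exfalso
      have h4 := HV.three p hpR h3
      apply hj
      rw [HV.tp.pal]
      refine Or.inl ?_
      rw [← h4, e3]; simp
    · rcases hR' with rfl | rfl
      · exfalso
        have h4 := HW.three p hpR' h3
        apply hi
        rw [HW.tp.pal]
        refine Or.inl ?_
        rw [← h4, e3]; simp
      · exact ⟨i, j, k, e1, e2, hi, hj⟩

/-- all contacts on the connecting arc of `V`: the distance is at least the root of three -/
theorem farQ (hw : QW T Q) {V W : ℂ} {C A : Set (Fin 6)} (hQ : Q V C A) (hne : V ≠ W)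
    (hlt : dist V W < 2)
    (hall : ∀ p, dist p V = 1 → dist p W = 1 → V + W ≠ 2 * p → p ∈ closure (Ex T V C)) :
    3 ≤ dist V W ^ 2 := by
  obtain ⟨p, p', hpp, h1, h2, h3, h4, h5, h6, h7⟩ := two_common hlt hne
  exact far_of_diam h1 h3 h7 ((hw.qf V C A hQ).diam p (hall p h1 h2 h5) p' (hall p' h3 h4 h6))

/-- **the far lemma**: `q` a chain vertex whose connecting pair consists of one free colour of `V`
and one colour of `A` -/
theorem linkFar (h : Irr U T) (hw : QW T Q) {V q : ℂ} {C A : Set (Fin 6)} {α α' X g : Fin 6}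
    (hQ : Q V C A) (hq : Q q {α, X} {α', g}) (hF : (T V)ᶜ = {α, α'}) (hX : X ∈ A) (hαα : α ≠ α')
    (hg : g ≠ α) (hg' : g ≠ X) (hlt : dist V q < 2) : 3 ≤ dist V q ^ 2 := by
  have HV := hw.qf V C A hQ
  have Hq := hw.qf q _ _ hq
  have hTV : T V = C ∪ A := HV.tp.pal
  have hTq : T q = {α, X} ∪ {α', g} := Hq.tp.pal
  have hα : α ∉ T V := by rw [← mem_compl_iff, hF]; simp
  have hα' : α' ∉ T V := by rw [← mem_compl_iff, hF]; simp
  have hXV : X ∈ T V := by rw [hTV]; exact Or.inr hX
  have hXC : X ∉ C := fun h1 => Set.disjoint_left.1 HV.tp.disj h1 hX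
  have hne : V ≠ q := by
    rintro rfl
    exact hα (by rw [hTq]; simp)
  have hcov : ∀ i, i ∈ T V ∨ i ∈ T q := by
    intro i
    by_cases h1 : i ∈ T V
    · exact Or.inl h1
    · right
      rw [← mem_compl_iff, hF] at h1
      rw [hTq]
      rcases h1 with rfl | h1
      · simp
      · rw [mem_singleton_iff] at h1
        subst h1; simp
  have hd : ∀ i ∈ C, i ∉ ({α, X} : Set (Fin 6)) := by
    intro i hi hi'
    rcases hi' with rfl | hi'
    · exact hα (by rw [hTV]; exact Or.inl hi)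
    · rw [mem_singleton_iff] at hi'
      subst hi'
      exact hXC hi
  refine hw.farQ hQ hne hlt fun p hp hpq hne2 => ?_
  rcases contactQ h hw hQ hq hd hcov hne hne2 hp hpq with h1 | h1 | h1 | h1 | h1
  · exact subset_closure h1.2
  · exfalso
    rw [h1] at hX
    exact hX (by rw [hTq]; simp)
  · exfalso
    have h2 : X ∈ (T V)ᶜ := by rw [← h1.1]; simp
    exact h2 hXV
  · exfalso
    rw [hF] at h1
    have h2 : α ∈ ({α', g} : Set (Fin 6)) := by rw [h1]; simp
    rcases h2 with h2 | h2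
    · exact hαα h2
    · exact hg h2.symm
  · exfalso
    obtain ⟨i, j, k, hA, hA', hi, hj⟩ := h1
    have hk : k ∈ ({α', g} : Set (Fin 6)) := by rw [hA']; simp
    have hkA : k ∈ T V := by rw [hTV, hA]; right; simp
    have hkg : k = g := by
      rcases hk with hk | hk
      · exact absurd (hk ▸ hkA) hα'
      · exact hk
    rw [hA] at hX
    rcases hX with h2 | h2
    · apply hi
      rw [← h2, hTq]; simp
    · rw [mem_singleton_iff] at h2
      exact hg' (by rw [h2, hkg])

/-- `V` and `W` have complementary faces `{r} ∪ C`, `{s} ∪ C'`, and `W` is mixed with the wedge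
colour `L` -/
structure Lens (T : ℂ → Set (Fin 6)) (Q : ℂ → Set (Fin 6) → Set (Fin 6) → Prop) (V W : ℂ)
    (C A C' A' : Set (Fin 6)) (r s L : Fin 6) : Prop where
  free : C' = (T V)ᶜ
  A1 : A = {r, s}
  A2 : A' = {s, L}
  L_mem : L ∈ C
  con : ∀ p, dist p V = 1 → dist p W = 1 → p ∈ Ex T W C'
  mixed : ∀ q α α' X g, q ∈ closure (Ex T W C') → 4 ≤ (T q).ncard → C' = {α, α'} → α ≠ α' →
    X ∈ A' → g ∉ C' → g ≠ X → Q q {α, X} {α', g} → X = L

theorem lens_of (h : Irr U T) (hw : QW T Q) {V W : ℂ} {C A C' A' : Set (Fin 6)} {r s s' : Fin 6}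
    (hQ : Q V C A) (hQ' : Q W C' A') (hA : A = {r, s}) (hA' : A' = {s, s'}) (hne : V ≠ W)
    (hlt : dist V W < 2) (hF : C' = (T V)ᶜ) (hs' : s' ∈ C ∨ s' = r)
    (hall : ∀ p, dist p V = 1 → dist p W = 1 → p ∈ Ex T W C') :
    Lens T Q V W C A C' A' r s s' := by
  -- an end with `X ∈ A` is impossible
  have key : ∀ q α α' X g, q ∈ closure (Ex T W C') → 4 ≤ (T q).ncard → C' = {α, α'} → α ≠ α' →
      X ∈ A' → g ∉ C' → g ≠ X → Q q {α, X} {α', g} → X ∉ A := by
    intro q α α' X g hq hq4 hC hαα hX hg hgX hQq hXA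
    obtain ⟨p, p', hpp, h1, h2, h3, h4, h5, h6, h7⟩ := two_common hlt hne
    have HW := hw.qf W C' A' hQ'
    have hn := near_end h2 h4 h7 hpp (dist_of_closure hq)
      (HW.diam p (subset_closure (hall p h1 h2)) q hq)
      (HW.diam p' (subset_closure (hall p' h3 h4)) q hq)
    have hg1 : g ≠ α := fun e => hg (by rw [hC, e]; simp)
    have := linkFar h hw hQ hQq (by rw [← hF, hC]) hXA hαα hg1 hgX (lt_two_of_sq hn)
    linarith
  have hs : s' ∈ C := by
    refine hs'.resolve_right fun e => ?_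
    subst e
    obtain ⟨q, hq, hq4⟩ := hw.ends W C' A' hQ'
    obtain ⟨α, α', X, g, hC, hαα, hX, hg, hgX, hQq⟩ := hw.link W C' A' q hQ' hq hq4
    refine key q α α' X g hq hq4 hC hαα hX hg hgX hQq ?_
    rw [hA]; rw [hA'] at hX
    rcases hX with h1 | h1
    · exact Or.inr h1
    · exact Or.inl h1
  refine ⟨hF, hA, hA', hs, hall, fun q α α' X g hq hq4 hC hαα hX hg hgX hQq => ?_⟩
  have h1 := key q α α' X g hq hq4 hC hαα hX hg hgX hQq
  rw [hA'] at hX
  rcases hX with h2 | h2
  · exfalso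
    apply h1
    rw [h2, hA]; simp
  · exact h2

/-- no midpoint contacts at distance less than two -/
theorem not_mid {V W p : ℂ} (hlt : dist V W < 2) (hp : dist p V = 1) : V + W ≠ 2 * p := by
  intro h
  have e : V - W = 2 * (V - p) := by linear_combination -h
  have h1 : dist V W = 2 := by
    rw [dist_eq_norm, e, norm_mul, ← dist_eq_norm, dist_comm V p, hp]; simp
  linarith

/-- **Lemma (VW)** -/
theorem vw (h : Irr U T) (hw : QW T Q) {V W : ℂ} {C A C' A' : Set (Fin 6)} {r s : Fin 6}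
    (hQ : Q V C A) (hQ' : Q W C' A') (hr : r ∈ A) (hs : s ∈ A')
    (hcomp : insert s C' = (insert r C)ᶜ) (hlt : dist V W < 2) :
    (∃ L, Lens T Q V W C A C' A' r s L) ∨ ∃ L, Lens T Q W V C' A' C A s r L := by
  have HV := hw.qf V C A hQ
  have HW := hw.qf W C' A' hQ'
  have hTV : T V = C ∪ A := HV.tp.pal
  have hTW : T W = C' ∪ A' := HW.tp.pal
  have hm : ∀ i, i ∈ insert s C' ↔ i ∉ insert r C := by
    intro i; rw [hcomp]; rfl
  have hrV : r ∈ T V := by rw [hTV]; exact Or.inr hr
  have hsW : s ∈ T W := by rw [hTW]; exact Or.inr hs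
  have hCV : ∀ i ∈ C, i ∈ T V := fun i hi => by rw [hTV]; exact Or.inl hi
  have hCW : ∀ i ∈ C', i ∈ T W := fun i hi => by rw [hTW]; exact Or.inl hi
  have hcov : ∀ i, i ∈ T V ∨ i ∈ T W := by
    intro i
    by_cases h1 : i ∈ insert r C
    · left
      rcases h1 with rfl | h1
      · exact hrV
      · exact hCV i h1
    · right
      rcases (hm i).2 h1 with rfl | h1
      · exact hsW
      · exact hCW i h1
  have hne : V ≠ W := by
    rintro rfl
    have h1 : T V = univ := by
      ext i; simpa using hcov i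
    have h2 := HV.tp.card
    rw [h1, Set.ncard_univ] at h2
    simp at h2
  have hd : ∀ i ∈ C, i ∉ C' := fun i hi hi' => (hm i).1 (Or.inr hi') (Or.inr hi)
  -- the other colours of `A`, `A'`
  have other : ∀ {B : Set (Fin 6)} {x : Fin 6}, B.ncard = 2 → x ∈ B → ∃ y, B = {x, y} ∧ x ≠ y := by
    intro B x hB hx
    obtain ⟨u, v, huv, rfl⟩ := Set.ncard_eq_two.1 hB
    rcases hx with rfl | hx
    · exact ⟨v, rfl, huv⟩
    · rw [mem_singleton_iff] at hx
      subst hx
      exact ⟨u, pair_comm _ _, huv.symm⟩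
  obtain ⟨r', hA, hrr⟩ := other HV.tp.c2 hr
  obtain ⟨s', hA', hss⟩ := other HW.tp.c2 hs
  have hr'V : r' ∈ T V := by rw [hTV, hA]; right; simp
  have hs'W : s' ∈ T W := by rw [hTW, hA']; right; simp
  have hr'C : r' ∉ C := fun h1 => Set.disjoint_left.1 HV.tp.disj h1 (by rw [hA]; simp)
  have hs'C : s' ∉ C' := fun h1 => Set.disjoint_left.1 HW.tp.disj h1 (by rw [hA']; simp)
  have hr' : r' ∈ insert s C' := by
    rw [hm]
    rintro (h1 | h1)
    · exact hrr h1.symm
    · exact hr'C h1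
  have hs' : s' ∈ insert r C := by
    by_contra h1
    rcases (hm s').2 h1 with h2 | h2
    · exact hss h2.symm
    · exact hs'C h2
  have hr'W : r' ∈ T W := by
    rcases hr' with h1 | h1
    · rw [h1]; exact hsW
    · exact hCW _ h1
  have hs'V : s' ∈ T V := by
    rcases hs' with h1 | h1
    · rw [h1]; exact hrV
    · exact hCV _ h1
  -- the contacts
  have hcon : ∀ p, dist p V = 1 → dist p W = 1 →
      (C = (T W)ᶜ ∧ p ∈ Ex T V C) ∨ (C' = (T V)ᶜ ∧ p ∈ Ex T W C') := by
    intro p hp hp'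
    rcases contactQ h hw hQ hQ' hd hcov hne (not_mid hlt hp) hp hp' with h1 | h1 | h1 | h1 | h1
    · exact Or.inl h1
    · exfalso
      have : r' ∈ (T W)ᶜ := by rw [← h1, hA]; simp
      exact this hr'W
    · exact Or.inr h1
    · exfalso
      have : s' ∈ (T V)ᶜ := by rw [← h1, hA']; simp
      exact this hs'V
    · exfalso
      obtain ⟨i, j, k, e1, e2, hi, hj⟩ := h1
      have hk : k ∈ A := by rw [e1]; simp
      have hk' : k ∈ A' := by rw [e2]; simp
      have hiA : i ∈ A := by rw [e1]; simp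
      have hjA : j ∈ A' := by rw [e2]; simp
      rw [hA] at hiA hk
      rw [hA'] at hjA hk'
      have hir : i = r := by
        rcases hiA with h2 | h2
        · exact h2
        · exact absurd (by rw [mem_singleton_iff.1 h2]; exact hr'W) hi
      have hjs : j = s := by
        rcases hjA with h2 | h2
        · exact h2
        · exact absurd (by rw [mem_singleton_iff.1 h2]; exact hs'V) hj
      have hc1 := HV.tp.c2
      have hc2 := HW.tp.c2
      have hkr : k ≠ r := by
        rintro rfl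
        rw [e1, hir] at hc1
        simp at hc1
      have hks : k ≠ s := by
        rintro rfl
        rw [e2, hjs] at hc2
        simp at hc2
      have h2 : k = r' := by
        rcases hk with h2 | h2
        · exact absurd h2 hkr
        · exact h2
      have h3 : k = s' := by
        rcases hk' with h3 | h3
        · exact absurd h3 hks
        · exact h3
      have h4 : r' ∉ insert r C := (hm r').1 hr'
      exact h4 (by rw [← h2, h3]; exact hs')
  -- `C' = (T V)ᶜ` forces `r' = s`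
  have hF1 : C' = (T V)ᶜ → r' = s := by
    intro h1
    rcases hr' with h2 | h2
    · exact h2
    · rw [h1] at h2
      exact absurd hr'V h2
  have hF2 : C = (T W)ᶜ → s' = r := by
    intro h1
    rcases hs' with h2 | h2
    · exact h2
    · rw [h1] at h2
      exact absurd hs'W h2
  by_cases hall : ∀ p, dist p V = 1 → dist p W = 1 → p ∈ Ex T W C'
  · left
    have hF : C' = (T V)ᶜ := by
      by_contra h1
      obtain ⟨p, p', hpp, h2, h3, -⟩ := two_common hlt hne
      rcases hcon p h2 h3 with h4 | h4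
      · have h5 := ex_self h4.2
        have h6 := ex_self (hall p h2 h3)
        obtain ⟨i, hi⟩ := h.ne p
        exact hd i (h5 ▸ hi) (h6 ▸ hi)
      · exact h1 h4.1
    have e := hF1 hF
    exact ⟨s', lens_of h hw hQ hQ' (by rw [hA, e]) hA' hne hlt hF hs'.symm hall⟩
  by_cases hall' : ∀ p, dist p W = 1 → dist p V = 1 → p ∈ Ex T V C
  · right
    have hF : C = (T W)ᶜ := by
      by_contra h1
      obtain ⟨p, p', hpp, h2, h3, -⟩ := two_common hlt hne
      rcases hcon p h2 h3 with h4 | h4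
      · exact h1 h4.1
      · have h5 := ex_self h4.2
        have h6 := ex_self (hall' p h3 h2)
        obtain ⟨i, hi⟩ := h.ne p
        exact hd i (h6 ▸ hi) (h5 ▸ hi)
    have e := hF2 hF
    exact ⟨r', lens_of h hw hQ' hQ (by rw [hA', e]) hA hne.symm (by rw [dist_comm]; exact hlt) hF
      hr'.symm hall'⟩
  exfalso
  push Not at hall hall'
  obtain ⟨p, hpV, hpW, hp⟩ := hall
  obtain ⟨p', hpW', hpV', hp'⟩ := hall'
  have h1 := (hcon p hpV hpW).resolve_right fun h1 => hp h1.2
  have h2 := (hcon p' hpV' hpW').resolve_left fun h1 => hp' h1.2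
  have hp'c : p' ∉ closure (Ex T V C) := fun h3 =>
    hp' (HV.ex h h3 (hw.ord3 hQ hQ' hd hne (not_mid hlt hpV') hpV' hpW'))
  obtain ⟨q, hq, hqE, hqW⟩ := exists_end hne hpV hpW hpV' hpW' h1.2 hp'c
  obtain ⟨α, α', X, g, hC, hαα, hX, hg, hgX, hQq⟩ := hw.link V C A q hQ hq
    (HV.four_of h hq hqE)
  have e1 := hF1 h2.1
  have e2 := hF2 h1.1
  have hXA' : X ∈ A' := by
    rw [hA, e1] at hX
    rw [hA', e2]
    rcases hX with h3 | h3
    · exact Or.inr h3
    · exact Or.inl h3
  have hg1 : g ≠ α := fun e => hg (by rw [hC, e]; simp)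
  have h3 := linkFar h hw hQ' hQq (by rw [← h1.1, hC]) hXA' hαα hg1 hgX
    (by rw [dist_comm]; linarith)
  have h4 := one_lt_of_sq h3
  rw [dist_comm] at h4
  linarith

end QW

end Vale.Agent.P032.H678
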