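import Vale.Agent.P032.H227.Cont

/-!
# P032: contacts of the circles of two two-pair points

Wild frame `Irr U T`.  `V`, `W` two-pair points, `T V ∪ T W` everything.

* `TP T V P P'` : `V` has the two pairs `P`, `P'` (set form of `DPt`).
* `contact` : the full contact lemma of note 15780.  A common point `p` of `S(V)`, `S(W)` (not the
  midpoint) with at most three colours is (i) in the closure of the exact `R`-arcs of `S(V)` for a
  pair `R` of `V` with `R = (T W)ᶜ`, or (ii) the same with `V`, `W` exchanged, or (iii) an end of an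
  exact `{i, k}`-arc of `S(V)` and of an exact `{j, k}`-arc of `S(W)`, `T p = {i, j, k}`, `i ∉ T W`,
  `j ∉ T V`.
-/

open Set Filter Topology Metric

noncomputable section

namespace Vale.Agent.P032.H678

open Vale.Agent.P032.Six Vale.Agent.P032.S5.H767

variable {U : Fin 6 → Set ℂ} {T : ℂ → Set (Fin 6)}

/-- a two-pair point with the pairs `P`, `P'` -/
structure TP (T : ℂ → Set (Fin 6)) (V : ℂ) (P P' : Set (Fin 6)) : Prop where
  pal : T V = P ∪ P'
  disj : Disjoint P P'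
  c1 : P.ncard = 2
  c2 : P'.ncard = 2
  near : ∀ q, dist q V = 1 → T q ⊆ T V →
    (q ∈ closure (Ex T V P) ∧ P ⊆ T q) ∨ (q ∈ closure (Ex T V P') ∧ P' ⊆ T q)

theorem TP.symm {V : ℂ} {P P' : Set (Fin 6)} (h : TP T V P P') : TP T V P' P where
  pal := by rw [h.pal, union_comm]
  disj := h.disj.symm
  c1 := h.c2
  c2 := h.c1
  near := fun q h1 h2 => (h.near q h1 h2).symm

theorem TP.card {V : ℂ} {P P' : Set (Fin 6)} (h : TP T V P P') : (T V).ncard = 4 := by
  rw [h.pal, Set.ncard_union_eq h.disj (Set.toFinite _) (Set.toFinite _), h.c1, h.c2]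

theorem TP.free {V : ℂ} {P P' : Set (Fin 6)} (h : TP T V P P') : (T V)ᶜ.ncard = 2 := by
  have h1 := Set.ncard_add_ncard_compl (T V)
  have h2 : Nat.card (Fin 6) = 6 := by simp
  have h3 := h.card
  omega

theorem TP.of_dpt (h : Irr U T) {V : ℂ} {a b c d : Fin 6} (hV : DPt T V a b c d) :
    TP T V {a, b} {c, d} where
  pal := by
    rw [hV.pal]; ext i; simp only [mem_insert_iff, mem_singleton_iff, mem_union]; tauto
  disj := by
    rw [Set.disjoint_left]
    intro i hi hi'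
    rcases hi with rfl | hi
    · rcases hi' with h1 | h1
      · exact hV.ac h1
      · exact hV.ad h1
    · rw [mem_singleton_iff] at hi
      subst hi
      rcases hi' with h1 | h1
      · exact hV.bc h1
      · exact hV.bd h1
  c1 := Set.ncard_pair hV.ab
  c2 := Set.ncard_pair hV.cd
  near := by
    intro q hq hsub
    by_cases h1 : q ∈ closure (Ex T V {a, b})
    · exact Or.inl ⟨h1, sub_of_closure h h1⟩
    by_cases h2 : q ∈ closure (Ex T V {c, d})
    · exact Or.inr ⟨h2, sub_of_closure h h2⟩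
    exfalso
    have h3 : (closure (Ex T V {a, b}))ᶜ ∩ (closure (Ex T V {c, d}))ᶜ ∈ 𝓝 q :=
      inter_mem (isClosed_closure.isOpen_compl.mem_nhds h1)
        (isClosed_closure.isOpen_compl.mem_nhds h2)
    obtain ⟨q', ⟨h4, h5⟩, hq', hloc, hs, -, -⟩ := h.arc_of_sub hq hsub h3
    rcases h.twoPairs hV q' hq' hloc (hs.trans hsub) with h6 | h6
    · exact h4 (subset_closure ⟨hq', hloc.mono fun y hy => hy.trans h6⟩)
    · exact h5 (subset_closure ⟨hq', hloc.mono fun y hy => hy.trans h6⟩)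

/-- a two-element set inside a two-element set -/
theorem eq_of_two {P Q : Set (Fin 6)} (hP : P.ncard = 2) (hQ : Q.ncard = 2) (h : P ⊆ Q) : P = Q :=
  Set.eq_of_subset_of_ncard_le h (by omega) (Set.toFinite _)

/-- a palette with at most three colours which contains the pair `P` of `V` does not contain the
other one -/
theorem TP.not_other {V p : ℂ} {P P' : Set (Fin 6)} (h : TP T V P P') (h3 : (T p).ncard ≤ 3)
    (hP : P ⊆ T p) : ¬ P' ⊆ T p := by
  intro hP'
  have h1 := Set.ncard_le_ncard (union_subset hP hP') (Set.toFinite _)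
  rw [← h.pal, h.card] at h1
  omega

/-- at a contact the colours of `S(V)` near `p` are no constant colour of `W` -/
theorem no_const (h : Irr U T) {V W p : ℂ} (hpV : dist p V = 1) (hpW : dist p W = 1) (hne : V ≠ W)
    (hne2 : V + W ≠ 2 * p) {t : Fin 6} (ht : t ∈ T W)
    (hJ : ∀ᶠ q in 𝓝[sphere V 1] p, t ∈ T q) : False :=
  h.not_eventually hpV hpW hne.symm (by rwa [add_comm]) ht hJ


/-- eventually on `S(V)` near `p`: palettes inside `T p` -/
theorem ev_sub (h : Irr U T) {V p : ℂ} : ∀ᶠ q in 𝓝[sphere V 1] p, T q ⊆ T p :=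
  mem_nhdsWithin_of_mem_nhds (h.nhd p)

/-- eventually off a closed set -/
theorem ev_off {V p : ℂ} {S : Set ℂ} (hp : p ∉ closure S) :
    ∀ᶠ q in 𝓝[sphere V 1] p, q ∉ closure S :=
  mem_nhdsWithin_of_mem_nhds (isClosed_closure.isOpen_compl.mem_nhds hp)

/-- **first half**: `p` is no limit of exact arcs of `S(V)` -/
theorem contact_far (h : Irr U T) {V W p : ℂ} {P P' Q Q' : Set (Fin 6)} (hV : TP T V P P')
    (hW : TP T W Q Q') (hcov : ∀ i, i ∈ T V ∨ i ∈ T W) (hne : V ≠ W) (hne2 : V + W ≠ 2 * p)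
    (hpV : dist p V = 1) (hpW : dist p W = 1) (h3 : (T p).ncard ≤ 3)
    (hP : p ∉ closure (Ex T V P)) (hP' : p ∉ closure (Ex T V P')) :
    ∃ R, (R = Q ∨ R = Q') ∧ R = (T V)ᶜ ∧ p ∈ closure (Ex T W R) := by
  -- the free colours of `V` are colours of `p`
  obtain ⟨e, f, hef, hF⟩ := Set.ncard_eq_two.1 hV.free
  have hmemF : ∀ i, i ∉ T V ↔ i = e ∨ i = f := by
    intro i
    rw [← mem_compl_iff, hF]
    simp
  have hev : ∀ᶠ q in 𝓝[sphere V 1] p, T q ⊆ T p ∧ (e ∈ T q ∨ f ∈ T q) := by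
    filter_upwards [ev_sub h, ev_off hP, ev_off hP', self_mem_nhdsWithin] with q h1 h2 h4 h5
    refine ⟨h1, ?_⟩
    by_contra hcon
    rw [not_or] at hcon
    have hsub : T q ⊆ T V := by
      intro i hi
      by_contra h6
      rcases (hmemF i).1 h6 with rfl | rfl
      · exact hcon.1 hi
      · exact hcon.2 hi
    rcases hV.near q h5 hsub with h6 | h6
    · exact h2 h6.1
    · exact h4 h6.1
  have hep : e ∈ T p := by
    by_contra h1
    refine no_const h hpV hpW hne hne2 (t := f) ((hcov f).resolve_left ((hmemF f).2 (Or.inr rfl))) ?_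
    filter_upwards [hev] with q hq
    exact hq.2.resolve_left fun h2 => h1 (hq.1 h2)
  have hfp : f ∈ T p := by
    by_contra h1
    refine no_const h hpV hpW hne hne2 (t := e) ((hcov e).resolve_left ((hmemF e).2 (Or.inl rfl))) ?_
    filter_upwards [hev] with q hq
    exact hq.2.resolve_right fun h2 => h1 (hq.1 h2)
  by_contra hcon
  push Not at hcon
  have hne' : W ≠ V := hne.symm
  have hne2' : W + V ≠ 2 * p := by rwa [add_comm]
  -- at most one further colour
  have huniq : ∀ i j, i ∈ T p → j ∈ T p → i ∈ T V → j ∈ T V → i = j := by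
    intro i j hi hj hiV hjV
    by_contra hij
    have h1 : ({i, j, e, f} : Set (Fin 6)) ⊆ T p := by
      rintro m (rfl | rfl | rfl | rfl) <;> assumption
    have h2 := Set.ncard_le_ncard h1 (Set.toFinite _)
    have hie : i ≠ e := fun e' => (hmemF e).2 (Or.inl rfl) (e' ▸ hiV)
    have hif : i ≠ f := fun e' => (hmemF f).2 (Or.inr rfl) (e' ▸ hiV)
    have hje : j ≠ e := fun e' => (hmemF e).2 (Or.inl rfl) (e' ▸ hjV)
    have hjf : j ≠ f := fun e' => (hmemF f).2 (Or.inr rfl) (e' ▸ hjV)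
    have h4 : ({i, j, e, f} : Set (Fin 6)).ncard = 4 := by
      rw [Set.ncard_insert_of_notMem, Set.ncard_insert_of_notMem, Set.ncard_pair hef]
      · simp only [mem_insert_iff, mem_singleton_iff, not_or]
        exact ⟨hje, hjf⟩
      · simp only [mem_insert_iff, mem_singleton_iff, not_or]
        exact ⟨hij, hie, hif⟩
    omega
  -- near `p` on `S(W)` there is a colour of `V`
  have hpair : ∀ R : Set (Fin 6), R.ncard = 2 → R ≠ (T V)ᶜ → ∃ i ∈ R, i ∈ T V := by
    intro R hR hRV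
    by_contra h1
    push Not at h1
    exact hRV (eq_of_two hR hV.free fun i hi => h1 i hi)
  have hevW : ∀ᶠ q in 𝓝[sphere W 1] p, T q ⊆ T p ∧ ∃ i ∈ T q, i ∈ T V := by
    have e1 : ∀ R, (R = Q ∨ R = Q') → ∀ᶠ q in 𝓝[sphere W 1] p,
        R = (T V)ᶜ → q ∉ closure (Ex T W R) := by
      intro R hR
      by_cases hRV : R = (T V)ᶜ
      · filter_upwards [ev_off (hcon R hR hRV)] with q hq _
        exact hq
      · exact Eventually.of_forall fun q h2 => absurd h2 hRV
    filter_upwards [ev_sub h, e1 Q (Or.inl rfl), e1 Q' (Or.inr rfl), self_mem_nhdsWithin]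
      with q h1 h2 h4 h5
    refine ⟨h1, ?_⟩
    by_cases hsub : T q ⊆ T W
    · rcases hW.near q h5 hsub with ⟨h6, h7⟩ | ⟨h6, h7⟩
      · obtain ⟨i, hi, hiV⟩ := hpair Q hW.c1 fun h8 => h2 h8 h6
        exact ⟨i, h7 hi, hiV⟩
      · obtain ⟨i, hi, hiV⟩ := hpair Q' hW.c2 fun h8 => h4 h8 h6
        exact ⟨i, h7 hi, hiV⟩
    · obtain ⟨i, hi, hiW⟩ := not_subset.1 hsub
      exact ⟨i, hi, (hcov i).resolve_right hiW⟩
  obtain ⟨x, hxp, hxV⟩ := (hevW.self_of_nhdsWithin (show p ∈ sphere W 1 from hpW)).2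
  refine no_const h hpW hpV hne' hne2' hxV ?_
  filter_upwards [hevW] with q hq
  obtain ⟨i, hi, hiV⟩ := hq.2
  rw [huniq x i hxp (hq.1 hi) hxV hiV]
  exact hi

/-- a pair `R` of `V` at a contact `p` contains a colour outside `T W` -/
theorem contact_half (h : Irr U T) {V W p : ℂ} {P P' Q Q' : Set (Fin 6)} (hV : TP T V P P')
    (hW : TP T W Q Q') (hcov : ∀ i, i ∈ T V ∨ i ∈ T W) (hne : V ≠ W) (hne2 : V + W ≠ 2 * p)
    (hpV : dist p V = 1) (hpW : dist p W = 1) (h3 : (T p).ncard ≤ 3)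
    (hP : P ⊆ T p) (hQ : Q ⊆ T p) (hQV : Q ≠ (T V)ᶜ) : ∃ i ∈ P, i ∉ T W := by
  by_contra hcon
  push Not at hcon
  have hne' : W ≠ V := hne.symm
  have hne2' : W + V ≠ 2 * p := by rwa [add_comm]
  obtain ⟨k, hk⟩ : P.Nonempty := (Set.ncard_pos (Set.toFinite _)).1 (by rw [hV.c1]; norm_num)
  -- a colour outside `T V`
  obtain ⟨v, hvp, hvV⟩ : ∃ v ∈ T p, v ∉ T V := by
    by_contra h1
    push Not at h1
    refine no_const h hpV hpW hne hne2 (hcon k hk) ?_
    filter_upwards [ev_sub h, self_mem_nhdsWithin] with q h2 h4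
    rcases hV.near q h4 (h2.trans h1) with h5 | h5
    · exact h5.2 hk
    · exact absurd (h5.2.trans h2) (hV.not_other h3 hP)
  -- `T p = insert v P`
  have hTp : T p ⊆ T W := by
    have h1 : insert v P ⊆ T p := insert_subset hvp hP
    have h2 : v ∉ P := fun h2 => hvV (by rw [hV.pal]; exact Or.inl h2)
    have h4 : (insert v P).ncard = 3 := by
      rw [Set.ncard_insert_of_notMem h2 (Set.toFinite _), hV.c1]
    have h5 : insert v P = T p := Set.eq_of_subset_of_ncard_le h1 (by omega) (Set.toFinite _)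
    rw [← h5]
    refine insert_subset ((hcov v).resolve_left hvV) fun i hi => hcon i hi
  -- a colour of `Q` in `T V`
  obtain ⟨x, hxQ, hxV⟩ : ∃ x ∈ Q, x ∈ T V := by
    by_contra h1
    push Not at h1
    exact hQV (eq_of_two hW.c1 hV.free fun i hi => h1 i hi)
  refine no_const h hpW hpV hne' hne2' hxV ?_
  filter_upwards [ev_sub h, self_mem_nhdsWithin] with q h2 h4
  rcases hW.near q h4 (h2.trans hTp) with h5 | h5
  · exact h5.2 hxQ
  · exact absurd (h5.2.trans h2) (hW.not_other h3 hQ)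

/-- **the full contact lemma for two two-pair points** -/
theorem contact (h : Irr U T) {V W p : ℂ} {P P' Q Q' : Set (Fin 6)} (hV : TP T V P P')
    (hW : TP T W Q Q') (hcov : ∀ i, i ∈ T V ∨ i ∈ T W) (hne : V ≠ W) (hne2 : V + W ≠ 2 * p)
    (hpV : dist p V = 1) (hpW : dist p W = 1) (h3 : (T p).ncard ≤ 3) :
    (∃ R, (R = P ∨ R = P') ∧ R = (T W)ᶜ ∧ p ∈ closure (Ex T V R)) ∨
    (∃ R, (R = Q ∨ R = Q') ∧ R = (T V)ᶜ ∧ p ∈ closure (Ex T W R)) ∨
    ∃ R R' i j k, (R = P ∨ R = P') ∧ (R' = Q ∨ R' = Q') ∧ p ∈ closure (Ex T V R) ∧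
      p ∈ closure (Ex T W R') ∧ i ∉ T W ∧ j ∉ T V ∧ k ∈ T V ∧ k ∈ T W ∧ R = {i, k} ∧
      R' = {j, k} ∧ T p = {i, j, k} := by
  have hne' : W ≠ V := hne.symm
  have hne2' : W + V ≠ 2 * p := by rwa [add_comm]
  by_cases hA : p ∉ closure (Ex T V P) ∧ p ∉ closure (Ex T V P')
  · exact Or.inr (Or.inl (contact_far h hV hW hcov hne hne2 hpV hpW h3 hA.1 hA.2))
  by_cases hB : p ∉ closure (Ex T W Q) ∧ p ∉ closure (Ex T W Q')
  · exact Or.inl (contact_far h hW hV (fun i => (hcov i).symm) hne' hne2' hpW hpV h3 hB.1 hB.2)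
  obtain ⟨R, hR, hpR⟩ : ∃ R, (R = P ∨ R = P') ∧ p ∈ closure (Ex T V R) := by
    by_contra hcon
    push Not at hcon
    exact hA ⟨hcon P (Or.inl rfl), hcon P' (Or.inr rfl)⟩
  obtain ⟨R', hR', hpR'⟩ : ∃ R, (R = Q ∨ R = Q') ∧ p ∈ closure (Ex T W R) := by
    by_contra hcon
    push Not at hcon
    exact hB ⟨hcon Q (Or.inl rfl), hcon Q' (Or.inr rfl)⟩
  by_cases h1 : R = (T W)ᶜ
  · exact Or.inl ⟨R, hR, h1, hpR⟩
  by_cases h2 : R' = (T V)ᶜ
  · exact Or.inr (Or.inl ⟨R', hR', h2, hpR'⟩)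
  right; right
  -- the other pairs
  obtain ⟨R1, hVR⟩ : ∃ R1, TP T V R R1 := by
    rcases hR with rfl | rfl
    · exact ⟨_, hV⟩
    · exact ⟨_, hV.symm⟩
  obtain ⟨R2, hWR⟩ : ∃ R2, TP T W R' R2 := by
    rcases hR' with rfl | rfl
    · exact ⟨_, hW⟩
    · exact ⟨_, hW.symm⟩
  have hRp : R ⊆ T p := sub_of_closure h hpR
  have hRp' : R' ⊆ T p := sub_of_closure h hpR'
  obtain ⟨i, hi, hiW⟩ := contact_half h hVR hWR hcov hne hne2 hpV hpW h3 hRp hRp' h2
  obtain ⟨j, hj, hjV⟩ := contact_half h hWR hVR (fun i => (hcov i).symm) hne' hne2' hpW hpV h3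
    hRp' hRp h1
  obtain ⟨k, hk, hkW⟩ : ∃ k ∈ R, k ∈ T W := by
    by_contra hcon
    push Not at hcon
    exact h1 (eq_of_two hVR.c1 hWR.free fun i hi => hcon i hi)
  obtain ⟨k', hk', hkV'⟩ : ∃ k ∈ R', k ∈ T V := by
    by_contra hcon
    push Not at hcon
    exact h2 (eq_of_two hWR.c1 hVR.free fun i hi => hcon i hi)
  have hRV : R ⊆ T V := by rw [hVR.pal]; exact subset_union_left
  have hRW : R' ⊆ T W := by rw [hWR.pal]; exact subset_union_left
  have hik : i ≠ k := fun e => hiW (e ▸ hkW)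
  have hjk' : j ≠ k' := fun e => hjV (e ▸ hkV')
  have hij : i ≠ j := fun e => hjV (e ▸ hRV hi)
  have hik' : i ≠ k' := fun e => hiW (e ▸ hRW hk')
  have hjk : j ≠ k := fun e => hjV (e ▸ hRV hk)
  have hkk : k = k' := by
    by_contra hkk
    have h4 : ({i, j, k, k'} : Set (Fin 6)) ⊆ T p := by
      rintro m (rfl | rfl | rfl | rfl)
      exacts [hRp hi, hRp' hj, hRp hk, hRp' hk']
    have h5 := Set.ncard_le_ncard h4 (Set.toFinite _)
    have h6 : ({i, j, k, k'} : Set (Fin 6)).ncard = 4 := by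
      rw [Set.ncard_insert_of_notMem, Set.ncard_insert_of_notMem, Set.ncard_pair hkk]
      · simp only [mem_insert_iff, mem_singleton_iff, not_or]
        exact ⟨hjk, hjk'⟩
      · simp only [mem_insert_iff, mem_singleton_iff, not_or]
        exact ⟨hij, hik, hik'⟩
    omega
  subst hkk
  have e1 : R = {i, k} := by
    refine (eq_of_two (Set.ncard_pair hik) hVR.c1 ?_).symm
    rintro m (rfl | rfl)
    exacts [hi, hk]
  have e2 : R' = {j, k} := by
    refine (eq_of_two (Set.ncard_pair hjk') hWR.c1 ?_).symm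
    rintro m (rfl | rfl)
    exacts [hj, hk']
  refine ⟨R, R', i, j, k, hR, hR', hpR, hpR', hiW, hjV, hRV hk, hkW, e1, e2, ?_⟩
  refine (Set.eq_of_subset_of_ncard_le ?_ ?_ (Set.toFinite _)).symm
  · rintro m (rfl | rfl | rfl)
    exacts [hRp hi, hRp' hj, hRp hk]
  · rw [Set.ncard_insert_of_notMem, Set.ncard_pair hjk]
    · exact h3
    · simp only [mem_insert_iff, mem_singleton_iff, not_or]
      exact ⟨hij, hik⟩

end Vale.Agent.P032.H678
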