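import Vale.Agent.P032.H678.VW3
import Vale.Agent.P032.H383.Far2
import Vale.Agent.P032.H406.Cross
import Vale.Agent.P032.S5.H349.Bridge

/-!
# P032: the rim of the lens (note 17541, (0) and (3))

`rim_param` : positions on `S(u)` of the two common points `c`, `c'` of `S(u)`, `S(w)` and of a point
`v` of `S(u)` inside `D(w)`.
`rim_link` : `C' = (T u)ᶜ`, a continuum from `c` to `c'` carries both colours of `C'`: a point `v` of
the rim has no colour of the pair `A` of `u`.
-/

open Set Filter Topology Metric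

noncomputable section

namespace Vale.Agent.P032.H678

open Vale.Agent.P032.Six Vale.Agent.P032.S5.H767 Vale.Agent.P032.S5.H349

variable {U : Fin 6 → Set ℂ} {T : ℂ → Set (Fin 6)}

theorem dist_pt_gt (z : ℂ) {s t : ℝ} (h : 1 < |s - t|) (h' : |s - t| < 5) :
    1 < dist (pt z s) (pt z t) := by
  have hpi := Real.pi_pos
  have h1 : Real.cos ((s - t) * (Real.pi / 3)) < 1 / 2 := by
    rw [← Real.cos_abs ((s - t) * (Real.pi / 3)), abs_mul,
      abs_of_pos (by positivity : 0 < Real.pi / 3), ← Real.cos_pi_div_three]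
    rcases le_total (|s - t|) 3 with h3 | h3
    · exact Real.cos_lt_cos_of_nonneg_of_le_pi (by positivity) (by nlinarith) (by nlinarith)
    · rw [← Real.cos_two_pi_sub (|s - t| * (Real.pi / 3))]
      exact Real.cos_lt_cos_of_nonneg_of_le_pi (by positivity) (by nlinarith) (by nlinarith)
  have h2 := H383.sq_dist_pt z s t
  have h3 : 0 ≤ dist (pt z s) (pt z t) := dist_nonneg
  nlinarith

/-- an angle relative to `s` -/
theorem exists_rel {u c : ℂ} (s : ℝ) (hc : dist c u = 1) : ∃ a : ℝ, |a| ≤ 3 ∧ c = pt u (s + a) := by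
  obtain ⟨r, hr⟩ := exists_pt hc
  refine ⟨toIocMod (by norm_num : (0 : ℝ) < 6) (-3) (r - s), ?_, ?_⟩
  · have h1 := toIocMod_mem_Ioc (by norm_num : (0 : ℝ) < 6) (-3) (r - s)
    rw [abs_le]
    constructor
    · exact h1.1.le
    · have := h1.2; linarith
  · have h1 := toIocMod_add_toIocDiv_zsmul (by norm_num : (0 : ℝ) < 6) (-3) (r - s)
    rw [hr]
    have h2 : ∀ (n : ℤ) (t : ℝ), pt u (t + n * 6) = pt u t := by
      intro n t
      have hp : Function.Periodic (pt u) 6 := fun x => pt_six u x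
      exact hp.int_mul n t
    have h3 : r = s + toIocMod (by norm_num : (0 : ℝ) < 6) (-3) (r - s) +
        (toIocDiv (by norm_num : (0 : ℝ) < 6) (-3) (r - s) : ℝ) * 6 := by
      rw [zsmul_eq_mul] at h1
      linarith
    rw [h3, h2, ← h3]

/-- half angles -/
theorem trig_half {p q : ℝ} (hp1 : |p| ≤ Real.pi / 2) (hq1 : |q| ≤ Real.pi / 2)
    (h1 : 1 / 2 ≤ Real.cos (2 * (p - q)))
    (h3 : Real.cos (p - q) * (Real.sin p * Real.sin q) < 0) :
    |p - q| ≤ Real.pi / 6 ∧ ((0 < p ∧ q < 0) ∨ (p < 0 ∧ 0 < q)) := by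
  have hpi := Real.pi_pos
  rw [abs_le] at hp1 hq1
  have hcos : 0 < Real.cos (p - q) ∧ |p - q| ≤ Real.pi / 6 := by
    by_cases h4 : |p - q| ≤ Real.pi / 6
    · refine ⟨?_, h4⟩
      rw [abs_le] at h4
      exact Real.cos_pos_of_mem_Ioo ⟨by linarith, by linarith⟩
    · exfalso
      push Not at h4
      have h5 : |p - q| ≤ Real.pi := by
        rw [abs_le]; constructor <;> linarith
      have h6 : 5 * (Real.pi / 6) ≤ |p - q| := by
        by_contra h7
        push Not at h7
        have h8 : Real.cos (2 * (p - q)) < 1 / 2 := by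
          rw [← Real.cos_abs (2 * (p - q)), abs_mul, abs_two, ← Real.cos_pi_div_three]
          rcases le_total (2 * |p - q|) Real.pi with h9 | h9
          · exact Real.cos_lt_cos_of_nonneg_of_le_pi (by positivity) h9 (by linarith)
          · rw [← Real.cos_two_pi_sub (2 * |p - q|)]
            exact Real.cos_lt_cos_of_nonneg_of_le_pi (by positivity) (by linarith) (by linarith)
        linarith
      have h7 : Real.cos (p - q) < 0 := by
        rw [← Real.cos_abs]
        exact Real.cos_neg_of_pi_div_two_lt_of_lt (by linarith) (by linarith)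
      have h8 : 0 < Real.sin p * Real.sin q := by
        by_contra h9
        push Not at h9
        have := mul_nonneg_of_nonpos_of_nonpos h7.le h9
        linarith
      rcases le_total 0 (p - q) with h9 | h9
      · rw [abs_of_nonneg h9] at h6
        have a1 : 0 < Real.sin p := Real.sin_pos_of_pos_of_lt_pi (by linarith) (by linarith)
        have a2 : Real.sin q < 0 := Real.sin_neg_of_neg_of_neg_pi_lt (by linarith) (by linarith)
        have := mul_neg_of_pos_of_neg a1 a2
        linarith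
      · rw [abs_of_nonpos h9] at h6
        have a1 : 0 < Real.sin q := Real.sin_pos_of_pos_of_lt_pi (by linarith) (by linarith)
        have a2 : Real.sin p < 0 := Real.sin_neg_of_neg_of_neg_pi_lt (by linarith) (by linarith)
        have := mul_neg_of_neg_of_pos a2 a1
        linarith
  have h4 : Real.sin p * Real.sin q < 0 := by
    by_contra h5
    push Not at h5
    have := mul_nonneg hcos.1.le h5
    linarith
  refine ⟨hcos.2, ?_⟩
  rcases lt_trichotomy 0 p with h6 | h6 | h6
  · have h7 : 0 < Real.sin p := Real.sin_pos_of_pos_of_lt_pi h6 (by linarith)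
    left
    refine ⟨h6, ?_⟩
    by_contra h10
    push Not at h10
    have h8 := Real.sin_nonneg_of_nonneg_of_le_pi h10 (by linarith)
    have := mul_nonneg h7.le h8
    linarith
  · rw [← h6] at h4
    simp at h4
  · have h7 : Real.sin p < 0 := Real.sin_neg_of_neg_of_neg_pi_lt h6 (by linarith)
    right
    refine ⟨h6, ?_⟩
    by_contra h10
    push Not at h10
    have h8 := Real.sin_nonpos_of_nonpos_of_neg_pi_le h10 (by linarith)
    have := mul_nonneg_of_nonpos_of_nonpos h7.le h8
    linarith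

/-- the positions on the rim -/
theorem rim_param {u w c c' v : ℂ} (hc : dist c u = 1) (hc' : dist c' u = 1)
    (hs : c + c' = u + w) (hd : dist c c' ≤ 1) (hv : dist v u = 1) (hvw : dist v w < 1) :
    ∃ s x y : ℝ, 0 < x ∧ 0 < y ∧ x + y ≤ 1 ∧ v = pt u s ∧
      ((c = pt u (s + x) ∧ c' = pt u (s - y)) ∨ (c' = pt u (s + x) ∧ c = pt u (s - y))) := by
  have hpi := Real.pi_pos
  obtain ⟨s, rfl⟩ := exists_pt hv
  obtain ⟨a, ha, rfl⟩ := exists_rel s hc
  obtain ⟨b, hb, rfl⟩ := exists_rel s hc'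
  -- the two conditions
  have h1 : 1 / 2 ≤ Real.cos ((a - b) * (Real.pi / 3)) := by
    have h2 := H383.sq_dist_pt u (s + a) (s + b)
    rw [show s + a - (s + b) = a - b by ring] at h2
    have h3 : dist (pt u (s + a)) (pt u (s + b)) ^ 2 ≤ 1 := pow_le_one₀ dist_nonneg hd
    linarith
  have h2 : 1 - Real.cos (a * (Real.pi / 3)) - Real.cos (b * (Real.pi / 3)) +
      Real.cos ((a - b) * (Real.pi / 3)) < 0 := by
    have hw : w = pt u (s + a) + pt u (s + b) - u := by linear_combination -hs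
    have e1 : pt u s - w = cis (s * (Real.pi / 3)) *
        (1 - cis (a * (Real.pi / 3)) - cis (b * (Real.pi / 3))) := by
      rw [hw]
      unfold pt
      have e2 : ∀ r : ℝ, cis ((s + r) * (Real.pi / 3)) =
          cis (s * (Real.pi / 3)) * cis (r * (Real.pi / 3)) := by
        intro r
        rw [← Six.cis_add]
        ring_nf
      rw [e2, e2]
      ring
    have h3 : dist (pt u s) w ^ 2 < 1 := pow_lt_one₀ dist_nonneg hvw two_ne_zero
    rw [dist_eq_norm, e1, norm_mul, norm_cis, one_mul, Complex.sq_norm, Complex.normSq_apply] at h3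
    simp only [Complex.sub_re, Complex.one_re, Complex.sub_im, Complex.one_im] at h3
    unfold cis at h3
    simp only [Complex.exp_ofReal_mul_I_re, Complex.exp_ofReal_mul_I_im] at h3
    have s1 := Real.sin_sq_add_cos_sq (a * (Real.pi / 3))
    have s2 := Real.sin_sq_add_cos_sq (b * (Real.pi / 3))
    rw [show (a - b) * (Real.pi / 3) = a * (Real.pi / 3) - b * (Real.pi / 3) by ring,
      Real.cos_sub]
    nlinarith
  -- half angles
  obtain ⟨p, hp⟩ : ∃ p, p = a * (Real.pi / 3) / 2 := ⟨_, rfl⟩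
  obtain ⟨q, hq⟩ : ∃ q, q = b * (Real.pi / 3) / 2 := ⟨_, rfl⟩
  have ea : a * (Real.pi / 3) = 2 * p := by rw [hp]; ring
  have eb : b * (Real.pi / 3) = 2 * q := by rw [hq]; ring
  have eab : (a - b) * (Real.pi / 3) = 2 * (p - q) := by rw [hp, hq]; ring
  rw [ea, eb, eab] at h2
  rw [eab] at h1
  have h3 : Real.cos (p - q) * (Real.sin p * Real.sin q) < 0 := by
    have e1 : 1 - Real.cos (2 * p) - Real.cos (2 * q) + Real.cos (2 * (p - q)) =
        4 * (Real.cos (p - q) * (Real.sin p * Real.sin q)) := by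
      rw [Real.cos_two_mul p, Real.cos_two_mul q, Real.cos_two_mul (p - q), Real.cos_sub]
      have s1 := Real.sin_sq_add_cos_sq p
      have s2 := Real.sin_sq_add_cos_sq q
      have s1' : Real.sin p ^ 2 = 1 - Real.cos p ^ 2 := by linarith
      have s2' : Real.sin q ^ 2 = 1 - Real.cos q ^ 2 := by linarith
      linear_combination (-2 * Real.sin q ^ 2) * s1' + (-2 * (1 - Real.cos p ^ 2)) * s2'
    rw [e1] at h2
    linarith
  have hp1 : |p| ≤ Real.pi / 2 := by
    rw [hp, abs_div, abs_mul, abs_of_pos (by positivity : 0 < Real.pi / 3), abs_two]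
    have := mul_le_mul_of_nonneg_right ha (by positivity : 0 ≤ Real.pi / 3)
    linarith
  have hq1 : |q| ≤ Real.pi / 2 := by
    rw [hq, abs_div, abs_mul, abs_of_pos (by positivity : 0 < Real.pi / 3), abs_two]
    have := mul_le_mul_of_nonneg_right hb (by positivity : 0 ≤ Real.pi / 3)
    linarith
  obtain ⟨h4, h5⟩ := trig_half hp1 hq1 h1 h3
  have hab : |a - b| ≤ 1 := by
    have e1 : p - q = (a - b) * (Real.pi / 6) := by rw [hp, hq]; ring
    rw [e1, abs_mul, abs_of_pos (by positivity : 0 < Real.pi / 6)] at h4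
    exact le_of_mul_le_mul_right (by linarith) (by positivity : 0 < Real.pi / 6)
  have hpos : ∀ r : ℝ, 0 < r * (Real.pi / 3) / 2 → 0 < r := by
    intro r hr
    by_contra h
    push Not at h
    have := mul_nonneg (neg_nonneg.2 h) (by positivity : 0 ≤ Real.pi / 3)
    linarith
  have hneg : ∀ r : ℝ, r * (Real.pi / 3) / 2 < 0 → 0 < -r := by
    intro r hr
    by_contra h
    push Not at h
    have := mul_nonneg (neg_nonpos.1 h) (by positivity : 0 ≤ Real.pi / 3)
    linarith
  rw [abs_le] at hab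
  rcases h5 with ⟨h5, h6⟩ | ⟨h5, h6⟩
  · rw [hp] at h5
    rw [hq] at h6
    exact ⟨s, a, -b, hpos a h5, hneg b h6, by linarith [hab.2], rfl,
      Or.inl ⟨rfl, by rw [sub_neg_eq_add]⟩⟩
  · rw [hp] at h5
    rw [hq] at h6
    exact ⟨s, b, -a, hpos b h6, hneg a h5, by linarith [hab.1], rfl,
      Or.inr ⟨rfl, by rw [sub_neg_eq_add]⟩⟩

/-- `g` separates a continuum with the colours of `C'` -/
theorem forced_sub (h : Irr U T) {u g q q' : ℂ} {C' K : Set _} (hF : C' = (T u)ᶜ)
    (hK : IsPreconnected K) (hKC : ∀ q ∈ K, C' ⊆ T q) (hq : q ∈ K) (hq' : q' ∈ K)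
    (h1 : dist g q < 1) (h2 : 1 < dist g q') : T g ⊆ T u := by
  intro a ha
  by_contra hau
  have haC : a ∈ C' := by rw [hF]; exact hau
  exact H406.cross406 h.mx hK (fun y hy => h.sub y (hKC y hy haC)) hq hq' h1 h2 (h.sub g ha)

/-- **the rim lemma**: a point of the rim has no colour of the second pair -/
theorem rim_link (h : Irr U T) {u : ℂ} {C A C' : Set (Fin 6)} {s x y : ℝ} (Hu : Qf T u C A)
    (hF : C' = (T u)ᶜ) {K : Set ℂ} (hK : IsPreconnected K) (hKC : ∀ q ∈ K, C' ⊆ T q)
    (hx : 0 < x) (hy : 0 < y) (hxy : x + y ≤ 1) (hc : pt u (s + x) ∈ K) (hc' : pt u (s - y) ∈ K)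
    {X : Fin 6} (hX : X ∈ A) : X ∉ T (pt u s) := by
  intro hXv
  -- the two forced arcs
  have fm : ∀ t ∈ Ioo (s - y - 1) (s + x - 1), T (pt u t) ⊆ T u := by
    intro t ht
    refine forced_sub h hF hK hKC hc' hc (H383.dist_pt_lt u ?_) (dist_pt_gt u ?_ ?_)
    · rw [abs_lt]; constructor <;> linarith [ht.1, ht.2]
    · rw [lt_abs]; right; linarith [ht.1, ht.2]
    · rw [abs_lt]; constructor <;> linarith [ht.1, ht.2]
  have fp : ∀ t ∈ Ioo (s - y + 1) (s + x + 1), T (pt u t) ⊆ T u := by
    intro t ht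
    refine forced_sub h hF hK hKC hc hc' (H383.dist_pt_lt u ?_) (dist_pt_gt u ?_ ?_)
    · rw [abs_lt]; constructor <;> linarith [ht.1, ht.2]
    · rw [lt_abs]; left; linarith [ht.1, ht.2]
    · rw [abs_lt]; constructor <;> linarith [ht.1, ht.2]
  obtain ⟨ε, hε, hεx, hεy⟩ : ∃ ε : ℝ, 0 < ε ∧ ε < x ∧ ε < y :=
    ⟨min x y / 2, by positivity, by
      have := min_le_left x y
      linarith [lt_min hx hy], by
      have := min_le_right x y
      linarith [lt_min hx hy]⟩
  have hpc : ∀ a b : ℝ, IsPreconnected (pt u '' Ioo a b) := fun a b =>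
    isPreconnected_Ioo.image _ (continuous_pt u).continuousOn
  by_cases hm : ∃ t ∈ Ioo (s - y - 1) (s + x - 1), pt u t ∈ closure (Ex T u C)
  · by_cases hp : ∃ t ∈ Ioo (s - y + 1) (s + x + 1), pt u t ∈ closure (Ex T u C)
    · obtain ⟨t, ht, ht'⟩ := hm
      obtain ⟨r, hr, hr'⟩ := hp
      have h1 := Hu.diam _ ht' _ hr'
      have h2 : 1 < dist (pt u t) (pt u r) := by
        refine dist_pt_gt u ?_ ?_
        · rw [lt_abs]; right; linarith [ht.1, ht.2, hr.1, hr.2]
        · rw [abs_lt]; constructor <;> linarith [ht.1, ht.2, hr.1, hr.2]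
      linarith
    · push Not at hp
      refine H406.cross406 h.mx (hpc (s - y + 1) (s + x + 1)) ?_ (g := pt u s)
        (q := pt u (s + 1 - ε)) (q' := pt u (s + 1 + ε)) ?_ ?_ ?_ ?_ (h.sub _ hXv)
      · rintro _ ⟨t, ht, rfl⟩
        refine h.sub _ ?_
        rcases Hu.tp.near _ (dist_pt u t) (fp t ht) with h1 | h1
        · exact absurd h1.1 (hp t ht)
        · exact h1.2 hX
      · exact ⟨_, ⟨by linarith, by linarith⟩, rfl⟩
      · exact ⟨_, ⟨by linarith, by linarith⟩, rfl⟩
      · refine H383.dist_pt_lt u ?_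
        rw [abs_lt]; constructor <;> linarith
      · refine dist_pt_gt u ?_ ?_
        · rw [lt_abs]; right; linarith
        · rw [abs_lt]; constructor <;> linarith
  · push Not at hm
    refine H406.cross406 h.mx (hpc (s - y - 1) (s + x - 1)) ?_ (g := pt u s)
      (q := pt u (s - 1 + ε)) (q' := pt u (s - 1 - ε)) ?_ ?_ ?_ ?_ (h.sub _ hXv)
    · rintro _ ⟨t, ht, rfl⟩
      refine h.sub _ ?_
      rcases Hu.tp.near _ (dist_pt u t) (fm t ht) with h1 | h1
      · exact absurd h1.1 (hm t ht)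
      · exact h1.2 hX
    · exact ⟨_, ⟨by linarith, by linarith⟩, rfl⟩
    · exact ⟨_, ⟨by linarith, by linarith⟩, rfl⟩
    · refine H383.dist_pt_lt u ?_
      rw [abs_lt]; constructor <;> linarith
    · refine dist_pt_gt u ?_ ?_
      · rw [lt_abs]; left; linarith
      · rw [abs_lt]; constructor <;> linarith

/-- the continuum on the connecting arc of `w` between two exact points -/
theorem Qf.cont (h : Irr U T) {u w c c' : ℂ} {C' A' : Set (Fin 6)} (Hw : Qf T w C' A')
    (hne : w ≠ u) (hc : c ∈ Ex T w C') (hc' : c' ∈ Ex T w C') (hcu : dist c u = 1)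
    (hcu' : dist c' u = 1) (hs : c + c' = u + w) (hpp : c ≠ c') :
    ∃ K : Set ℂ, IsPreconnected K ∧ (∀ q ∈ K, C' ⊆ T q) ∧ c ∈ K ∧ c' ∈ K := by
  obtain ⟨A0, hA, hA1, hA2, hA3⟩ := exists_arc hne hc.1 hcu hc'.1 hcu' hpp
  refine ⟨closure A0, hA.closure, ?_, hA2, hA3⟩
  have h1 : ∀ q ∈ A0, T q = C' := fun q hq =>
    Hw.conv c hc c' hc' q (hA1 q hq).1 (by
      rw [show c + c' - w = u by linear_combination hs]
      exact (hA1 q hq).2)
  intro q hq i hi
  have h2 : closure A0 ⊆ {x | i ∈ T x} := closure_minimal (fun y hy => by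
    show i ∈ T y
    rw [h1 y hy]; exact hi) (h.closed i)
  exact h2 hq

namespace QW

variable {Q : ℂ → Set (Fin 6) → Set (Fin 6) → Prop}

/-- in a lens the neighbours of the viewer are not on the rim -/
theorem rim_false (h : Irr U T) (hw : QW T Q) {V v w : ℂ} {C A C' A' : Set (Fin 6)} {X : Fin 6}
    (hQ : Q V C A) (hQ' : Q w C' A') (hF : C' = (T V)ᶜ) (hlt : dist V w < 2)
    (hcon : ∀ p, dist p V = 1 → dist p w = 1 → p ∈ Ex T w C') (hv : dist v V = 1)
    (hvw : dist v w < 1) (hX : X ∈ A) : X ∉ T v := by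
  have Hw := hw.qf w C' A' hQ'
  have HV := hw.qf V C A hQ
  have hne : V ≠ w := by
    rintro rfl
    rw [hv] at hvw
    exact lt_irrefl _ hvw
  obtain ⟨c, c', hcc, h1, h2, h3, h4, h5, h6, h7⟩ := two_common hlt hne
  have hd : dist c c' ≤ 1 :=
    Hw.diam c (subset_closure (hcon c h1 h2)) c' (subset_closure (hcon c' h3 h4))
  obtain ⟨K, hK, hKC, hcK, hcK'⟩ := Hw.cont h hne.symm (hcon c h1 h2) (hcon c' h3 h4) h1 h3 h7 hcc
  obtain ⟨s, x, y, hx, hy, hxy, rfl, hpos⟩ := rim_param h1 h3 h7 hd hv hvw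
  rcases hpos with ⟨e1, e2⟩ | ⟨e1, e2⟩
  · rw [e1] at hcK
    rw [e2] at hcK'
    exact rim_link h HV hF hK hKC hx hy hxy hcK hcK' hX
  · rw [e2] at hcK
    rw [e1] at hcK'
    exact rim_link h HV hF hK hKC hx hy hxy hcK' hcK hX

/-- **(B4) at `V_(±1)`**: `v` an end of the connecting arc of `V`; no chain vertex `w` in the open
disc of `v` has a face complementary to a face of `V` -/
theorem zero_one (h : Irr U T) (hw : QW T Q) {V v w : ℂ} {C A C' A' : Set (Fin 6)}
    {α α' X g r s : Fin 6} (hQ : Q V C A) (hv : v ∈ closure (Ex T V C))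
    (hv4 : 4 ≤ (T v).ncard) (hX : X ∈ A) (hQv : Q v {α, X} {α', g}) (hQ' : Q w C' A')
    (hlt : dist w v < 1) (hr : r ∈ A) (hs : s ∈ A') (hcomp : insert s C' = (insert r C)ᶜ) :
    False := by
  have HV := hw.qf V C A hQ
  have hvV : dist v V = 1 := dist_of_closure hv
  have hvw : dist v w < 1 := by rw [dist_comm]; exact hlt
  have h2 : dist V w < 2 := by
    have := dist_triangle V v w
    rw [dist_comm V v, hvV] at this
    linarith
  have hne : V ≠ w := by
    rintro rfl
    rw [hvV] at hvw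
    exact lt_irrefl _ hvw
  rcases vw h hw hQ hQ' hr hs hcomp h2 with ⟨L, hL⟩ | ⟨L, hL⟩
  · refine rim_false h hw hQ hQ' hL.free h2 hL.con hvV hvw hX ?_
    rw [(hw.qf v _ _ hQv).tp.pal]
    left; simp
  · obtain ⟨c, c', hcc, h1, h2, h3, h4, h5, h6, h7⟩ := two_common h2 hne
    have h8 := HV.conv c (hL.con c h2 h1) c' (hL.con c' h4 h3) v hvV (by
      rw [show c + c' - V = w by linear_combination h7]
      exact hvw)
    rw [h8, HV.tp.c1] at hv4
    omega

/-- **(B4) at `V_(±2)`**: `v`, `V2` on the closed connecting arc of `V1`; no chain vertex `w` in the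
open disc of `v` has a face complementary to a face of `V2` -/
theorem zero_two (h : Irr U T) (hw : QW T Q) {V1 V2 v w : ℂ} {C1 A1 C A C' A' : Set (Fin 6)}
    {r s : Fin 6} (hQ1 : Q V1 C1 A1) (hv : v ∈ closure (Ex T V1 C1)) (hv4 : 4 ≤ (T v).ncard)
    (hV2 : V2 ∈ closure (Ex T V1 C1)) (hQ : Q V2 C A) (hV1 : V1 ∈ closure (Ex T V2 C))
    (hQ' : Q w C' A') (hlt : dist w v < 1) (hr : r ∈ A) (hs : s ∈ A')
    (hcomp : insert s C' = (insert r C)ᶜ) : False := by
  have H1 := hw.qf V1 C1 A1 hQ1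
  have HV := hw.qf V2 C A hQ
  have Hw := hw.qf w C' A' hQ'
  have hvV1 : dist v V1 = 1 := dist_of_closure hv
  have hvw : dist v w < 1 := by rw [dist_comm]; exact hlt
  have hvV : dist v V2 ≤ 1 := H1.diam v hv V2 hV2
  have h2 : dist V2 w < 2 := by
    have := dist_triangle V2 v w
    rw [dist_comm V2 v] at this
    linarith
  have hrV : r ∈ T V2 := by rw [HV.tp.pal]; exact Or.inr hr
  have hne : V2 ≠ w := by
    rintro rfl
    -- `T V2` contains no complementary faces
    have h3 : ∀ i, i ∈ T V2 := by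
      intro i
      by_cases h4 : i ∈ insert r C
      · rcases h4 with rfl | h4
        · exact hrV
        · rw [HV.tp.pal]; exact Or.inl h4
      · have h5 : i ∈ insert s C' := by rw [hcomp]; exact h4
        rcases h5 with rfl | h5
        · rw [Hw.tp.pal]; exact Or.inr hs
        · rw [Hw.tp.pal]; exact Or.inl h5
    have h4 : T V2 = univ := by
      ext i; simpa using h3 i
    have h5 := HV.tp.card
    rw [h4, Set.ncard_univ] at h5
    simp at h5
  obtain ⟨c, c', hcc, k1, k2, k3, k4, k5, k6, k7⟩ := two_common h2 hne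
  rcases vw h hw hQ hQ' hr hs hcomp h2 with ⟨L, hL⟩ | ⟨L, hL⟩
  · have hc := hL.con c k1 k2
    have hc' := hL.con c' k3 k4
    have hfar : 1 < dist V2 w := one_lt_of_sq (far_of_diam k1 k3 k7
      (Hw.diam c (subset_closure hc) c' (subset_closure hc')))
    obtain ⟨q, hq, hqw⟩ := H1.conn.intermediate_value hv hV2
      (f := fun y => dist y w) (by fun_prop) (show (1 : ℝ) ∈ Icc (dist v w) (dist V2 w) from
        ⟨hvw.le, hfar.le⟩)
    have hqw : dist q w = 1 := hqw
    have hqV : dist q V2 ≤ 1 := H1.diam q hq V2 hV2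
    have hTq : T q = C' := by
      rcases lt_or_eq_of_le hqV with h3 | h3
      · refine Hw.conv c hc c' hc' q hqw ?_
        rw [show c + c' - w = V2 by linear_combination k7]
        exact h3
      · exact ex_self (hL.con q h3 hqw)
    obtain ⟨i, hi⟩ : C1.Nonempty :=
      (Set.ncard_pos (Set.toFinite _)).1 (by rw [H1.tp.c1]; norm_num)
    have h3 : i ∈ C' := by rw [← hTq]; exact sub_of_closure h hq hi
    have h4 : i ∈ T V2 := sub_of_closure h hV2 hi
    rw [hL.free] at h3
    exact h3 h4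
  · have hc := hL.con c k2 k1
    have hc' := hL.con c' k4 k3
    rcases lt_or_eq_of_le hvV with h3 | h3
    · have h4 := H227.lens_sub_lt k1 k2 k3 k4 hcc hne
        (HV.diam V1 hV1 c (subset_closure hc)) (HV.diam V1 hV1 c' (subset_closure hc')) h3 hvw
      rw [hvV1] at h4
      exact lt_irrefl _ h4
    · have h4 := HV.conv c hc c' hc' v h3 (by
        rw [show c + c' - V2 = w by linear_combination k7]
        exact hvw)
      rw [h4, HV.tp.c1] at hv4
      omega

end QW

end Vale.Agent.P032.H678
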