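import Vale.Agent.P032.H678.VW4
import Vale.Agent.P032.H961.WorldF
import Vale.Agent.P032.H758.Gauge

/-!
# P032: the rows (B4) in the closed discs

`zero_one_cl`, `zero_two_cl` : `zero_one`, `zero_two` with `dist w v ≤ 1`.
`one678`, `two678` : the faces of the two-pair points `w` of the closed disc of a chain vertex `v` are
not complementary to the faces of the neighbours of `v` and of their neighbours (world `QFW`, gauge of
H758).
-/

open Set Filter Topology Metric

noncomputable section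

namespace Vale.Agent.P032.H678

open Vale.Agent.P032.Six Vale.Agent.P032.S5.H767 Vale.Agent.P032.H961

variable {U : Fin 6 → Set ℂ} {T : ℂ → Set (Fin 6)}

theorem edge_real {a b c d t : ℝ} (k1 : a ^ 2 + (b - t) ^ 2 = 1 + t ^ 2)
    (k2 : a ^ 2 + (b + t) ^ 2 < 1 + t ^ 2) (k3 : (c - 1) ^ 2 + d ^ 2 ≤ 1 + t ^ 2)
    (k4 : (c + 1) ^ 2 + d ^ 2 ≤ 1 + t ^ 2) (k5 : (a - c) ^ 2 + (b - d) ^ 2 = 1 + t ^ 2) :
    c = 0 ∧ d = t := by
  have hbt : b * t < 0 := by nlinarith
  have ha : |a| < 1 := by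
    rw [abs_lt]
    constructor <;> nlinarith [sq_nonneg b]
  have hc : c ^ 2 + d ^ 2 + 2 * |c| ≤ t ^ 2 := by
    rcases abs_cases c with ⟨h1, -⟩ | ⟨h1, -⟩ <;> rw [h1] <;> nlinarith
  have hac : -(|a| * |c|) ≤ a * c := by
    rw [← abs_mul]; exact neg_abs_le _
  have h5 : |c| * (1 - |a|) ≤ b * (t - d) := by nlinarith
  have h6 : 0 ≤ |c| * (1 - |a|) := mul_nonneg (abs_nonneg c) (by linarith)
  have hd : |d| ≤ |t| := by
    rw [← sq_le_sq]
    nlinarith [abs_nonneg c, sq_nonneg c]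
  have h7 : b * (t - d) ≤ 0 := by
    rcases mul_neg_iff.1 hbt with ⟨hb, ht⟩ | ⟨hb, ht⟩
    · rw [abs_of_neg ht, abs_le] at hd
      exact mul_nonpos_of_nonneg_of_nonpos hb.le (by linarith [hd.1])
    · rw [abs_of_pos ht, abs_le] at hd
      exact mul_nonpos_of_nonpos_of_nonneg hb.le (by linarith [hd.2])
  have h8 : b * (t - d) = 0 := le_antisymm h7 (h6.trans h5)
  have h9 : |c| * (1 - |a|) = 0 := le_antisymm (h5.trans h7) h6
  constructor
  · rcases mul_eq_zero.1 h9 with h | h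
    · exact abs_eq_zero.1 h
    · linarith
  · rcases mul_eq_zero.1 h8 with h | h
    · rw [h, zero_mul] at hbt
      exact absurd hbt (lt_irrefl _)
    · linarith

/-- a point of the rim at distance one from `o` : `o` is the corner -/
theorem lens_edge {u v p p' o x : ℂ} (hpu : dist p u = 1) (hpv : dist p v = 1)
    (hpu' : dist p' u = 1) (hpv' : dist p' v = 1) (hpp : p ≠ p') (huv : u ≠ v)
    (ho : dist o p ≤ 1) (ho' : dist o p' ≤ 1) (hx : dist x u = 1) (hx' : dist x v < 1)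
    (hxo : dist x o = 1) : o = u := by
  obtain ⟨m, A, t, hA, rfl, rfl, rfl, rfl, hN⟩ := H227.lens_coord hpu hpv hpu' hpv' hpp huv
  have hA2 : 0 < Complex.normSq A := Complex.normSq_pos.2 hA
  obtain ⟨r, rfl⟩ : ∃ r, x = m + r * A := ⟨(x - m) / A, by field_simp; ring⟩
  obtain ⟨s, rfl⟩ : ∃ s, o = m + s * A := ⟨(o - m) / A, by field_simp; ring⟩
  have heq : ∀ {y z w : ℂ}, dist y z = 1 → w * A = y - z → Complex.normSq w = 1 + t ^ 2 := by
    intro y z w h1 h2
    have h3 : Complex.normSq A * Complex.normSq w = 1 := by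
      rw [mul_comm, ← Complex.normSq_mul, h2, Complex.normSq_eq_norm_sq, ← Complex.dist_eq, h1,
        one_pow]
    exact mul_left_cancel₀ hA2.ne' (by rw [h3, hN])
  have k1 := heq hx (w := r - t * Complex.I) (by ring)
  have k5 := heq hxo (w := r - s) (by ring)
  have k2 := (H227.key_lt hA2 hN (r + t * Complex.I)).1 (by
    rw [show (r + t * Complex.I) * A = m + r * A - (m - t * Complex.I * A) by ring]
    exact H227.dist_lt_one_iff.1 hx')
  have k3 := (H227.key_le hA2 hN (s - 1)).1 (by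
    rw [show (s - 1) * A = m + s * A - (m + A) by ring]
    exact H227.dist_le_one_iff.1 ho)
  have k4 := (H227.key_le hA2 hN (s + 1)).1 (by
    rw [show (s + 1) * A = m + s * A - (m - A) by ring]
    exact H227.dist_le_one_iff.1 ho')
  rw [H227.ns1] at k1
  rw [H227.ns2] at k2
  rw [H227.ns3] at k3
  rw [H227.ns4] at k4
  rw [H227.ns5] at k5
  obtain ⟨h1, h2⟩ := edge_real k1 k2 k3 k4 k5
  have h3 : s = t * Complex.I := Complex.ext (by simp [h1]) (by simp [h2])
  rw [h3]

namespace QW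

variable {Q : ℂ → Set (Fin 6) → Set (Fin 6) → Prop}

/-- **(B4) at `V_(±1)`**, closed disc (`dist V w < 2` : not the antipodal point) -/
theorem zero_one_cl (h : Irr U T) (hw : QW T Q) {V v w : ℂ} {C A C' A' : Set (Fin 6)}
    {α α' X g r s : Fin 6} (hQ : Q V C A) (hv : v ∈ closure (Ex T V C))
    (hv4 : 4 ≤ (T v).ncard) (hX : X ∈ A) (hQv : Q v {α, X} {α', g}) (hQ' : Q w C' A')
    (hle : dist w v ≤ 1) (h2 : dist V w < 2) (hr : r ∈ A) (hs : s ∈ A')
    (hcomp : insert s C' = (insert r C)ᶜ) : False := by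
  rcases lt_or_eq_of_le hle with hlt | heq
  · exact zero_one h hw hQ hv hv4 hX hQv hQ' hlt hr hs hcomp
  have hvV : dist v V = 1 := dist_of_closure hv
  have hvw : dist v w = 1 := by rw [dist_comm]; exact heq
  rcases vw h hw hQ hQ' hr hs hcomp h2 with ⟨L, hL⟩ | ⟨L, hL⟩
  · have h3 := ex_self (hL.con v hvV hvw)
    rw [h3, (hw.qf w _ _ hQ').tp.c1] at hv4
    omega
  · have h3 := ex_self (hL.con v hvw hvV)
    rw [h3, (hw.qf V _ _ hQ).tp.c1] at hv4
    omega

/-- linked vertices do not have all colours -/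
theorem not_all (hw : QW T Q) {V q : ℂ} {C A : Set (Fin 6)} (hQ : Q V C A)
    (hq : q ∈ closure (Ex T V C)) (h4 : 4 ≤ (T q).ncard) : ∃ i, i ∉ T V ∧ i ∉ T q := by
  have HV := hw.qf V C A hQ
  obtain ⟨α, α', X, g, hC, hαα, hX, hg, hgX, hQq⟩ := hw.link V C A q hQ hq h4
  have Hq := hw.qf q _ _ hQq
  have h1 : T V ∪ T q ⊆ insert g (T V) := by
    rintro i (hi | hi)
    · exact Or.inr hi
    · rw [Hq.tp.pal] at hi
      rw [HV.tp.pal, hC]
      rcases hi with (rfl | hi) | (rfl | hi)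
      · right; left; simp
      · rw [mem_singleton_iff.1 hi]; right; right; exact hX
      · right; left; simp
      · left; exact hi
  by_contra hcon
  push Not at hcon
  have h2 : (univ : Set (Fin 6)) ⊆ insert g (T V) := fun i _ => by
    by_cases hi : i ∈ T V
    · exact Or.inr hi
    · exact h1 (Or.inr (hcon i hi))
  have h3 := Set.ncard_le_ncard h2 (Set.toFinite _)
  have h5 := Set.ncard_insert_le g (T V)
  rw [HV.tp.card] at h5
  rw [Set.ncard_univ] at h3
  simp at h3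
  omega

/-- **(B4) at `V_(±2)`**, closed disc -/
theorem zero_two_cl (h : Irr U T) (hw : QW T Q) {V1 V2 v w : ℂ} {C1 A1 C A C' A' : Set (Fin 6)}
    {r s : Fin 6} (hQ1 : Q V1 C1 A1) (hv : v ∈ closure (Ex T V1 C1)) (hv4 : 4 ≤ (T v).ncard)
    (hV2 : V2 ∈ closure (Ex T V1 C1)) (hQ : Q V2 C A) (hV1 : V1 ∈ closure (Ex T V2 C))
    (hQ' : Q w C' A') (hle : dist w v ≤ 1) (h2 : dist V2 w < 2) (hr : r ∈ A) (hs : s ∈ A')
    (hcomp : insert s C' = (insert r C)ᶜ) : False := by
  rcases lt_or_eq_of_le hle with hlt | heq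
  · exact zero_two h hw hQ1 hv hv4 hV2 hQ hV1 hQ' hlt hr hs hcomp
  have H1 := hw.qf V1 C1 A1 hQ1
  have HV := hw.qf V2 C A hQ
  have Hw := hw.qf w C' A' hQ'
  have hvV1 : dist v V1 = 1 := dist_of_closure hv
  have hvw : dist v w = 1 := by rw [dist_comm]; exact heq
  have hvV : dist v V2 ≤ 1 := H1.diam v hv V2 hV2
  have hcov : ∀ i, i ∈ T V2 ∨ i ∈ T w := by
    intro i
    by_cases h4 : i ∈ insert r C
    · left
      rw [HV.tp.pal]
      rcases h4 with rfl | h4
      · exact Or.inr hr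
      · exact Or.inl h4
    · right
      have h5 : i ∈ insert s C' := by rw [hcomp]; exact h4
      rw [Hw.tp.pal]
      rcases h5 with rfl | h5
      · exact Or.inr hs
      · exact Or.inl h5
  have hne : V2 ≠ w := by
    rintro rfl
    have h4 : T V2 = univ := by
      ext i; simpa using hcov i
    have h5 := HV.tp.card
    rw [h4, Set.ncard_univ] at h5
    simp at h5
  obtain ⟨c, c', hcc, k1, k2, k3, k4, k5, k6, k7⟩ := two_common h2 hne
  rcases vw h hw hQ hQ' hr hs hcomp h2 with ⟨L, hL⟩ | ⟨L, hL⟩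
  · have hc := hL.con c k1 k2
    have hc' := hL.con c' k3 k4
    have h5 : T v = C' := by
      rcases lt_or_eq_of_le hvV with h3 | h3
      · refine Hw.conv c hc c' hc' v hvw ?_
        rw [show c + c' - w = V2 by linear_combination k7]
        exact h3
      · exact ex_self (hL.con v h3 hvw)
    rw [h5, Hw.tp.c1] at hv4
    omega
  · have hc := hL.con c k2 k1
    have hc' := hL.con c' k4 k3
    rcases lt_or_eq_of_le hvV with h3 | h3
    · have h4 := lens_edge k2 k1 k4 k3 hcc hne.symm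
        (HV.diam V1 hV1 c (subset_closure hc)) (HV.diam V1 hV1 c' (subset_closure hc')) hvw h3 hvV1
      obtain ⟨i, hi, hi'⟩ := hw.not_all hQ hV1 H1.tp.card.ge
      rw [h4] at hi'
      rcases hcov i with h5 | h5
      · exact hi h5
      · exact hi' h5
    · have h4 := ex_self (hL.con v hvw h3)
      rw [h4, HV.tp.c1] at hv4
      omega

end QW

/-! ### the world of quasi-full points -/

variable {V V1 V2 v w X1 X2 Y1 Y2 : ℂ} {a b m n e f x a1 b1 m1 n1 e1 f1 : Fin 6} {G : ℂ → Set (Fin 6)}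

/-- a face of a vertex for the gauge -/
theorem face_of (GG : Gauge758 T G) (H : QF T w a b m n e f V1 V2) {s : Set (Fin 6)}
    (hs : s.ncard = 3) (F : FcD T G w s) : ∃ y, (y = m ∨ y = n) ∧ s = insert y {a, b} := by
  obtain ⟨F1, F2⟩ := F
  have h4 : (T w).ncard = 4 := H.toQF0.ord0
  have h5 := F2 h4.ge
  rw [GG.qf H.toQF0] at h5
  have hp : T w = {a, b, m, n} := H.dpt.pal
  have hab := H.dpt.ab
  have hmn := H.dpt.cd
  have key : ∀ y z : Fin 6, ({m, n} : Set (Fin 6)) = {y, z} → z ∉ s → s = insert y {a, b} := by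
    intro y z hyz hz
    have hpy : T w = {a, b, y, z} := by
      rw [hp]
      have e1 : ({a, b, m, n} : Set (Fin 6)) = {a, b} ∪ {m, n} := by
        ext i
        simp only [mem_union, mem_insert_iff, mem_singleton_iff]
        tauto
      rw [e1, hyz]
      ext i
      simp only [mem_union, mem_insert_iff, mem_singleton_iff]
      tauto
    refine Set.eq_of_subset_of_ncard_le ?_ ?_ (Set.toFinite _)
    · intro i hi
      have h6 := F1 hi
      rw [hpy] at h6
      rcases h6 with rfl | rfl | rfl | h6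
      · simp
      · simp
      · simp
      · rw [mem_singleton_iff] at h6
        subst h6
        exact absurd hi hz
    · rw [hs]
      refine (Set.ncard_insert_le _ _).trans ?_
      rw [Set.ncard_pair hab]
  by_cases hm : m ∈ s
  · have hn : n ∉ s := fun hn => h5 (by rintro i (rfl | rfl) <;> assumption)
    exact ⟨m, Or.inl rfl, key m n rfl hn⟩
  · exact ⟨n, Or.inr rfl, key n m (Set.pair_comm _ _) hm⟩

theorem all_mem678 (nd : [a, b, m, n, e, f].Nodup) (i : Fin 6) :
    i = a ∨ i = b ∨ i = m ∨ i = n ∨ i = e ∨ i = f := by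
  have h1 : [a, b, m, n, e, f].toFinset = Finset.univ :=
    Finset.eq_univ_of_card _ (by rw [List.toFinset_card_of_nodup nd]; rfl)
  have h2 : i ∈ [a, b, m, n, e, f].toFinset := by rw [h1]; exact Finset.mem_univ i
  simpa using h2

theorem face3 (nd : [a, b, m, n, e, f].Nodup) (hx : x = m ∨ x = n) :
    (({x, e, f} : Set (Fin 6))).ncard = 3 ∧
      ∃ y, (y = m ∨ y = n) ∧ ({x, e, f} : Set (Fin 6)) = (insert y {a, b})ᶜ := by
  obtain ⟨h1, h2, h3⟩ : x ≠ e ∧ x ≠ f ∧ e ≠ f := by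
    simp only [List.nodup_cons, List.mem_cons, List.not_mem_nil, or_false, not_or,
      List.nodup_nil, and_true, not_false_eq_true] at nd
    rcases hx with rfl | rfl
    · exact ⟨nd.2.2.1.2.1, nd.2.2.1.2.2, nd.2.2.2.2⟩
    · exact ⟨nd.2.2.2.1.1, nd.2.2.2.1.2, nd.2.2.2.2⟩
  refine ⟨by rw [Set.ncard_insert_of_notMem (by simp [h1, h2]), Set.ncard_pair h3], ?_⟩
  have key : ∀ y z : Fin 6, [a, b, y, z, e, f].Nodup →
      ({z, e, f} : Set (Fin 6)) = (insert y {a, b})ᶜ := by
    intro y z nd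
    ext i
    have h4 := all_mem678 nd i
    simp only [List.nodup_cons, List.mem_cons, List.not_mem_nil, or_false, not_or,
      List.nodup_nil, and_true, not_false_eq_true] at nd
    simp only [mem_compl_iff, mem_insert_iff, mem_singleton_iff]
    obtain ⟨⟨hab, hay, haz, hae, haf⟩, ⟨hby, hbz, hbe, hbf⟩, ⟨hyz, hye, hyf⟩, ⟨hze, hzf⟩, hef⟩ := nd
    rcases h4 with rfl | rfl | rfl | rfl | rfl | rfl
    · simp [haz, hae, haf]
    · simp [hbz, hbe, hbf]
    · simp [hyz, hye, hyf]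
    · simp [Ne.symm hyz, Ne.symm haz, Ne.symm hbz]
    · simp [Ne.symm hye, Ne.symm hae, Ne.symm hbe]
    · simp [Ne.symm hyf, Ne.symm haf, Ne.symm hbf]
  rcases hx with rfl | rfl
  · exact ⟨n, Or.inr rfl, key n x (nodup_cd nd)⟩
  · exact ⟨m, Or.inl rfl, key m x nd⟩

/-- **(B4) at `V_(±1)`, faces of two-pair points** : `v` an end of the arc of `V`, `w` a two-pair point
of the closed disc of `v` -/
theorem one678 (h : Irr U T) (hw : QFW T) (GG : Gauge758 T G) (H : QF T V a b m n e f V1 V2)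
    (hv : v = V1 ∨ v = V2) (h4 : 4 ≤ (T w).ncard) (hle : dist w v ≤ 1) (hx : x = m ∨ x = n) :
    ¬ FcD T G w {x, e, f} := by
  intro F
  obtain ⟨hc, y, hy, hxy⟩ := face3 H.nd hx
  obtain ⟨a', b', m', n', e', f', W1, W2, Hw⟩ := hw.qf w h4
  obtain ⟨s, hs, hse⟩ := face_of GG Hw hc F
  have hW := hw.toQW h
  have hQ : QQF T V {a, b} {m, n} := ⟨a, b, m, n, e, f, V1, V2, rfl, rfl, H⟩
  have hQ' : QQF T w {a', b'} {m', n'} := ⟨a', b', m', n', e', f', W1, W2, rfl, rfl, Hw⟩
  have hr : y ∈ ({m, n} : Set (Fin 6)) := by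
    rcases hy with rfl | rfl <;> simp
  have hs' : s ∈ ({m', n'} : Set (Fin 6)) := by
    rcases hs with rfl | rfl <;> simp
  have hvc : v ∈ closure (Ex T V {a, b}) := by
    rcases hv with rfl | rfl
    · exact H.toQF0.mem1 h
    · exact H.toQF0.mem2 h
  have hv4 : 4 ≤ (T v).ncard := by
    rcases hv with rfl | rfl
    · exact H.toQF0.ord1.ge
    · exact H.toQF0.ord2.ge
  have hvV : dist v V = 1 := dist_of_closure hvc
  obtain ⟨α, α', X, g, hC, hαα, hX, hg, hgX, hQq⟩ := hW.link V _ _ v hQ hvc hv4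
  have h2 : dist V w < 2 := by
    rcases lt_or_eq_of_le hle with h5 | h5
    · have := dist_triangle V v w
      rw [dist_comm V v, dist_comm v w, hvV] at this
      linarith
    · -- `V` and `w` are ends of `v`
      obtain ⟨a2, b2, m2, n2, e2, f2, v1, v2, Hv⟩ := hw.qf v hv4
      have h12 := Hv.toQF0.dist12
      rcases Hv.ord w h5 h4 with h6 | h6 <;>
        rcases Hv.ord V (by rw [dist_comm]; exact hvV) H.toQF0.ord0.ge with h7 | h7 <;>
        rw [h6, h7]
      · rw [dist_self]; norm_num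
      · rw [dist_comm]; linarith
      · linarith
      · rw [dist_self]; norm_num
  exact hW.zero_one_cl h hQ hvc hv4 hX hQq hQ' hle h2 hr hs' (by rw [← hse, hxy])

/-- **(B4) at `V_(±2)`, faces of two-pair points** : `v` and `V2` the ends of the arc of `V1` -/
theorem two678 (h : Irr U T) (hw : QFW T) (GG : Gauge758 T G)
    (H1 : QF T V1 a1 b1 m1 n1 e1 f1 X1 X2) (hv : v = X1 ∧ V2 = X2 ∨ v = X2 ∧ V2 = X1)
    (H : QF T V2 a b m n e f Y1 Y2) (hV1 : V1 = Y1 ∨ V1 = Y2) (h4 : 4 ≤ (T w).ncard)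
    (hle : dist w v ≤ 1) (hx : x = m ∨ x = n) : ¬ FcD T G w {x, e, f} := by
  intro F
  obtain ⟨hc, y, hy, hxy⟩ := face3 H.nd hx
  obtain ⟨a', b', m', n', e', f', W1, W2, Hw⟩ := hw.qf w h4
  obtain ⟨s, hs, hse⟩ := face_of GG Hw hc F
  have hW := hw.toQW h
  have hQ : QQF T V2 {a, b} {m, n} := ⟨a, b, m, n, e, f, Y1, Y2, rfl, rfl, H⟩
  have hQ1 : QQF T V1 {a1, b1} {m1, n1} := ⟨a1, b1, m1, n1, e1, f1, X1, X2, rfl, rfl, H1⟩
  have hQ' : QQF T w {a', b'} {m', n'} := ⟨a', b', m', n', e', f', W1, W2, rfl, rfl, Hw⟩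
  have hr : y ∈ ({m, n} : Set (Fin 6)) := by
    rcases hy with rfl | rfl <;> simp
  have hs' : s ∈ ({m', n'} : Set (Fin 6)) := by
    rcases hs with rfl | rfl <;> simp
  have hvc : v ∈ closure (Ex T V1 {a1, b1}) := by
    rcases hv with ⟨rfl, -⟩ | ⟨rfl, -⟩
    · exact H1.toQF0.mem1 h
    · exact H1.toQF0.mem2 h
  have hv2 : V2 ∈ closure (Ex T V1 {a1, b1}) := by
    rcases hv with ⟨-, rfl⟩ | ⟨-, rfl⟩
    · exact H1.toQF0.mem2 h
    · exact H1.toQF0.mem1 h
  have hv4 : 4 ≤ (T v).ncard := by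
    rcases hv with ⟨rfl, -⟩ | ⟨rfl, -⟩
    · exact H1.toQF0.ord1.ge
    · exact H1.toQF0.ord2.ge
  have hV1c : V1 ∈ closure (Ex T V2 {a, b}) := by
    rcases hV1 with rfl | rfl
    · exact H.toQF0.mem1 h
    · exact H.toQF0.mem2 h
  have h2 : dist V2 w < 2 := by
    have h5 : dist V2 v < 1 := by
      have h12 := H1.toQF0.dist12
      rcases hv with ⟨rfl, rfl⟩ | ⟨rfl, rfl⟩
      · rw [dist_comm]; exact h12
      · exact h12
    have := dist_triangle V2 v w
    rw [dist_comm v w] at this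
    linarith
  exact hW.zero_two_cl h hQ1 hvc hv4 hv2 hQ hV1c hQ' hle h2 hr hs' (by rw [← hse, hxy])

end Vale.Agent.P032.H678
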