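import Vale.Agent.P032.H678.VW5

/-!
# P032: the rows (B4) for faces of two-pair points, world `QIW` without invisible points

`QIW.toQW0` : the world `QW` (all fields).  `oneI678`, `twoI678` : `one678`, `two678` over `QIW`.
-/

open Set Filter Topology Metric

noncomputable section

namespace Vale.Agent.P032.H678

open Vale.Agent.P032.Six Vale.Agent.P032.S5.H767 Vale.Agent.P032.H961

variable {U : Fin 6 → Set ℂ} {T : ℂ → Set (Fin 6)} {Inv : ℂ → ℂ → Prop}
  {V V1 V2 v w X1 X2 Y1 Y2 : ℂ} {a b m n e f x a1 b1 m1 n1 e1 f1 : Fin 6} {G : ℂ → Set (Fin 6)}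

/-- the world `QW` from `QIW` without invisible points -/
theorem toQW0 (h : Irr U T) (hw : QIW T Inv) (hI : ∀ V y, ¬ Inv V y) : QW T (QQ T Inv) := by
  refine hw.toQW h ?_
  rintro V C A W C' A' p ⟨a, b, m, n, e, f, V1, V2, rfl, rfl, H⟩
    ⟨a', b', m', n', e', f', W1, W2, rfl, rfl, H'⟩ hne - hp hp' h4
  refine four_link h hw (p := p) H H' hne ?_ ?_
  · rcases H.ord p hp h4 with h1 | h1 | h1
    · exact Or.inl h1
    · exact Or.inr h1
    · exact absurd h1 (hI _ _)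
  · rcases H'.ord p hp' h4 with h1 | h1 | h1
    · exact Or.inl h1
    · exact Or.inr h1
    · exact absurd h1 (hI _ _)

/-- a face of a vertex for the gauge -/
theorem face_ofI (hG : G w = {m, n}) (H : QI T Inv w a b m n e f V1 V2) {s : Set (Fin 6)}
    (hs : s.ncard = 3) (F : FcD T G w s) : ∃ y, (y = m ∨ y = n) ∧ s = insert y {a, b} := by
  obtain ⟨F1, F2⟩ := F
  have h4 : (T w).ncard = 4 := H.toQI0.ord0
  have h5 := F2 h4.ge
  rw [hG] at h5
  have hp : T w = {a, b, m, n} := H.dpt.pal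
  have hab := H.dpt.ab
  have hmn := H.dpt.cd
  have key : ∀ y z : Fin 6, ({m, n} : Set (Fin 6)) = {y, z} → z ∉ s → s = insert y {a, b} := by
    intro y z hyz hz
    have hpy : T w = {a, b, y, z} := by
      rw [hp]
      have e1 : ({a, b, m, n} : Set (Fin 6)) = {a, b} ∪ {m, n} := by
        ext i
        simp only [mem_union, mem_insert_iff, mem_singleton_iff]
        tauto
      rw [e1, hyz]
      ext i
      simp only [mem_union, mem_insert_iff, mem_singleton_iff]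
      tauto
    refine Set.eq_of_subset_of_ncard_le ?_ ?_ (Set.toFinite _)
    · intro i hi
      have h6 := F1 hi
      rw [hpy] at h6
      rcases h6 with rfl | rfl | rfl | h6
      · simp
      · simp
      · simp
      · rw [mem_singleton_iff] at h6
        subst h6
        exact absurd hi hz
    · rw [hs]
      refine (Set.ncard_insert_le _ _).trans ?_
      rw [Set.ncard_pair hab]
  by_cases hm : m ∈ s
  · have hn : n ∉ s := fun hn => h5 (by rintro i (rfl | rfl) <;> assumption)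
    exact ⟨m, Or.inl rfl, key m n rfl hn⟩
  · exact ⟨n, Or.inr rfl, key n m (Set.pair_comm _ _) hm⟩

/-- two points of order four on the circle of a vertex are at distance at most one -/
theorem ends_le (hI : ∀ V y, ¬ Inv V y) (H : QI T Inv v a b m n e f V1 V2) {y z : ℂ}
    (hy : dist y v = 1) (hy4 : 4 ≤ (T y).ncard) (hz : dist z v = 1) (hz4 : 4 ≤ (T z).ncard) :
    dist y z ≤ 1 := by
  have h12 := H.toQI0.dist12
  have key : ∀ p, dist p v = 1 → 4 ≤ (T p).ncard → p = V1 ∨ p = V2 := by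
    intro p hp hp4
    rcases H.ord p hp hp4 with h1 | h1 | h1
    · exact Or.inl h1
    · exact Or.inr h1
    · exact absurd h1 (hI _ _)
  rcases key y hy hy4 with h6 | h6 <;> rcases key z hz hz4 with h7 | h7 <;> rw [h6, h7]
  · rw [dist_self]; norm_num
  · exact h12
  · rw [dist_comm]; exact h12
  · rw [dist_self]; norm_num

theorem lt_two_of (h21 : dist V1 V2 = 1) (hvV1 : dist v V1 = 1) (h5 : dist v V2 ≤ 1)
    (h6 : dist w v = 1) (h7 : dist V1 w ≤ 1) : dist V2 w < 2 := by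
  by_contra hcon
  push Not at hcon
  have q1 := sq_dist' V2 w
  have q2 := sq_dist' V1 w
  have q3 := sq_dist' V1 V2
  have q4 := sq_dist' v V1
  have q5 := sq_dist' v V2
  have q6 := sq_dist' w v
  obtain ⟨A, hA⟩ : ∃ A, A = V1 - v := ⟨_, rfl⟩
  obtain ⟨B, hB⟩ : ∃ B, B = V2 - v := ⟨_, rfl⟩
  obtain ⟨D, hD'⟩ : ∃ D, D = w - v := ⟨_, rfl⟩
  rw [show V2 - w = B - D by rw [hB, hD']; ring] at q1
  rw [show V1 - w = A - D by rw [hA, hD']; ring] at q2
  rw [show V1 - V2 = A - B by rw [hA, hB]; ring] at q3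
  rw [show v - V1 = -A by rw [hA]; ring, Complex.normSq_neg] at q4
  rw [show v - V2 = -B by rw [hB]; ring, Complex.normSq_neg] at q5
  rw [← hD'] at q6
  rw [Complex.normSq_apply] at q1 q2 q3 q4 q5 q6
  simp only [Complex.sub_re, Complex.sub_im] at q1 q2 q3
  have r1 : 4 ≤ dist V2 w ^ 2 := by nlinarith
  have r2 : dist V1 w ^ 2 ≤ 1 := pow_le_one₀ dist_nonneg h7
  have r5 : dist v V2 ^ 2 ≤ 1 := pow_le_one₀ dist_nonneg h5
  rw [q1] at r1
  rw [q2] at r2
  rw [q5] at r5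
  rw [h21] at q3
  rw [hvV1] at q4
  rw [h6] at q6
  have s1 : (B.re + D.re) * (B.re + D.re) + (B.im + D.im) * (B.im + D.im) ≤ 0 := by
    linarith
  have t1 := mul_self_nonneg (B.im + D.im)
  have t2 := mul_self_nonneg (B.re + D.re)
  have s2 : B.re + D.re = 0 := mul_self_eq_zero.1 (by linarith)
  have s3 : B.im + D.im = 0 := mul_self_eq_zero.1 (by linarith)
  have s4 : A.re * (B.re + D.re) + A.im * (B.im + D.im) = 0 := by rw [s2, s3]; ring
  have t3 := mul_self_nonneg B.re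
  have t4 := mul_self_nonneg B.im
  linarith

/-- **(B4) at `V_(±1)`, faces of two-pair points** -/
theorem oneI678 (h : Irr U T) (hw : QIW T Inv) (hI : ∀ V y, ¬ Inv V y)
    (hG : ∀ {V V1 V2 : ℂ} {a b m n e g : Fin 6}, QI T Inv V a b m n e g V1 V2 → G V = {m, n})
    (H : QI T Inv V a b m n e f V1 V2) (hv : v = V1 ∨ v = V2)
    (hD : ∃ a b c d, DPt T w a b c d) (hle : dist w v ≤ 1) (hx : x = m ∨ x = n) :
    ¬ FcD T G w {x, e, f} := by
  intro F
  obtain ⟨hc, y, hy, hxy⟩ := face3 H.nd hx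
  obtain ⟨a₀, b₀, c₀, d₀, hD⟩ := hD
  have h4 : 4 ≤ (T w).ncard := (card4 hD).ge
  obtain ⟨a', b', m', n', e', f', W1, W2, Hw⟩ := hw.qf hD
  obtain ⟨s, hs, hse⟩ := face_ofI (hG Hw) Hw hc F
  have hW := toQW0 h hw hI
  have hQ : QQ T Inv V {a, b} {m, n} := ⟨a, b, m, n, e, f, V1, V2, rfl, rfl, H⟩
  have hQ' : QQ T Inv w {a', b'} {m', n'} := ⟨a', b', m', n', e', f', W1, W2, rfl, rfl, Hw⟩
  have hr : y ∈ ({m, n} : Set (Fin 6)) := by
    rcases hy with rfl | rfl <;> simp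
  have hs' : s ∈ ({m', n'} : Set (Fin 6)) := by
    rcases hs with rfl | rfl <;> simp
  have hvc : v ∈ closure (Ex T V {a, b}) := by
    rcases hv with rfl | rfl
    · exact H.toQI0.mem1 h
    · exact H.toQI0.mem2 h
  have hv4 : 4 ≤ (T v).ncard := by
    rcases hv with rfl | rfl
    · exact H.toQI0.ord1.ge
    · exact H.toQI0.ord2.ge
  have hvV : dist v V = 1 := dist_of_closure hvc
  obtain ⟨α, α', X, g, hC, hαα, hX, hg, hgX, hQq⟩ := hW.link V _ _ v hQ hvc hv4
  have h2 : dist V w < 2 := by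
    rcases lt_or_eq_of_le hle with h5 | h5
    · have := dist_triangle V v w
      rw [dist_comm V v, dist_comm v w, hvV] at this
      linarith
    · obtain ⟨a2, b2, m2, n2, e2, f2, v1, v2, -, -, Hv⟩ := hQq
      have := ends_le hI Hv (by rw [dist_comm]; exact hvV) H.toQI0.ord0.ge h5 h4
      linarith
  exact hW.zero_one_cl h hQ hvc hv4 hX hQq hQ' hle h2 hr hs' (by rw [← hse, hxy])

/-- **(B4) at `V_(±2)`, faces of two-pair points** -/
theorem twoI678 (h : Irr U T) (hw : QIW T Inv) (hI : ∀ V y, ¬ Inv V y)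
    (hG : ∀ {V V1 V2 : ℂ} {a b m n e g : Fin 6}, QI T Inv V a b m n e g V1 V2 → G V = {m, n})
    (H1 : QI T Inv V1 a1 b1 m1 n1 e1 f1 X1 X2) (hv : v = X1 ∧ V2 = X2 ∨ v = X2 ∧ V2 = X1)
    (H : QI T Inv V2 a b m n e f Y1 Y2) (hV1 : V1 = Y1 ∨ V1 = Y2)
    (hD : ∃ a b c d, DPt T w a b c d) (hle : dist w v ≤ 1) (hx : x = m ∨ x = n) :
    ¬ FcD T G w {x, e, f} := by
  intro F
  obtain ⟨hc, y, hy, hxy⟩ := face3 H.nd hx
  obtain ⟨a₀, b₀, c₀, d₀, hD⟩ := hD
  have h4 : 4 ≤ (T w).ncard := (card4 hD).ge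
  obtain ⟨a', b', m', n', e', f', W1, W2, Hw⟩ := hw.qf hD
  obtain ⟨s, hs, hse⟩ := face_ofI (hG Hw) Hw hc F
  have hW := toQW0 h hw hI
  have hQ : QQ T Inv V2 {a, b} {m, n} := ⟨a, b, m, n, e, f, Y1, Y2, rfl, rfl, H⟩
  have hQ1 : QQ T Inv V1 {a1, b1} {m1, n1} := ⟨a1, b1, m1, n1, e1, f1, X1, X2, rfl, rfl, H1⟩
  have hQ' : QQ T Inv w {a', b'} {m', n'} := ⟨a', b', m', n', e', f', W1, W2, rfl, rfl, Hw⟩
  have hr : y ∈ ({m, n} : Set (Fin 6)) := by
    rcases hy with rfl | rfl <;> simp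
  have hs' : s ∈ ({m', n'} : Set (Fin 6)) := by
    rcases hs with rfl | rfl <;> simp
  have hvc : v ∈ closure (Ex T V1 {a1, b1}) := by
    rcases hv with ⟨rfl, -⟩ | ⟨rfl, -⟩
    · exact H1.toQI0.mem1 h
    · exact H1.toQI0.mem2 h
  have hv2 : V2 ∈ closure (Ex T V1 {a1, b1}) := by
    rcases hv with ⟨-, rfl⟩ | ⟨-, rfl⟩
    · exact H1.toQI0.mem2 h
    · exact H1.toQI0.mem1 h
  have hv4 : 4 ≤ (T v).ncard := by
    rcases hv with ⟨rfl, -⟩ | ⟨rfl, -⟩
    · exact H1.toQI0.ord1.ge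
    · exact H1.toQI0.ord2.ge
  have hV1c : V1 ∈ closure (Ex T V2 {a, b}) := by
    rcases hV1 with rfl | rfl
    · exact H.toQI0.mem1 h
    · exact H.toQI0.mem2 h
  have hvV1 : dist v V1 = 1 := dist_of_closure hvc
  have h21 : dist V1 V2 = 1 := dist_of_closure hV1c
  have h5 : dist v V2 ≤ 1 := (hW.qf _ _ _ hQ1).diam v hvc V2 hv2
  have h2 : dist V2 w < 2 := by
    rcases lt_or_eq_of_le hle with h6 | h6
    · have := dist_triangle V2 v w
      rw [dist_comm V2 v, dist_comm v w] at this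
      linarith
    · -- `V1` and `w` are ends of `v`
      obtain ⟨α, α', X, g, hC, hαα, hX, hg, hgX, hQq⟩ := hW.link V1 _ _ v hQ1 hvc hv4
      obtain ⟨a2, b2, m2, n2, e2, f2, v1, v2, -, -, Hv⟩ := hQq
      have h7 : dist V1 w ≤ 1 := ends_le hI Hv (by rw [dist_comm]; exact hvV1) H1.toQI0.ord0.ge h6 h4
      exact lt_two_of h21 hvV1 h5 h6 h7
  exact hW.zero_two_cl h hQ1 hvc hv4 hv2 hQ hV1c hQ' hle h2 hr hs' (by rw [← hse, hxy])

end Vale.Agent.P032.H678
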